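import Mathlib

/-!
# P181: algebraic core, abstract form

`F` is a commutative `ℂ`-algebra, `U` a `ℂ`-vector space (of linear forms), and
`e i : U →ₗ[ℂ] F` the evaluation of a linear form at the `i`-th vector.
-/

namespace Vale.Agent.P181

open scoped BigOperators
open Polynomial

section Coeff

variable {F : Type*} [CommRing F] [Algebra ℂ F]

/-- coefficient extraction: if all values of a polynomial with coefficients in `F` at complex
numbers lie in a subspace, then so do its coefficients. -/
theorem coeff_mem_of_eval_mem (S : Submodule ℂ F) (Q : F[X])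
    (h : ∀ t : ℂ, Q.eval (algebraMap ℂ F t) ∈ S) (n : ℕ) : Q.coeff n ∈ S := by
  classical
  rw [← Submodule.Quotient.mk_eq_zero]
  rw [← Module.forall_dual_apply_eq_zero_iff ℂ]
  intro φ
  -- the polynomial with complex coefficients
  set ψ : F →ₗ[ℂ] ℂ := φ ∘ₗ S.mkQ with hψ
  have key : (∑ i ∈ Finset.range (Q.natDegree + 1), Polynomial.monomial i (ψ (Q.coeff i)) : ℂ[X])
      = 0 := by
    apply Polynomial.funext
    intro t
    have h1 : ψ (Q.eval (algebraMap ℂ F t)) = 0 := by
      rw [hψ]
      simp only [LinearMap.comp_apply, Submodule.mkQ_apply]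
      rw [(Submodule.Quotient.mk_eq_zero S).2 (h t), map_zero]
    rw [Polynomial.eval_eq_sum_range, map_sum] at h1
    rw [Polynomial.eval_finsetSum, Polynomial.eval_zero, ← h1]
    refine Finset.sum_congr rfl fun i _ => ?_
    rw [Polynomial.eval_monomial, ← map_pow, mul_comm (Q.coeff i), ← Algebra.smul_def, map_smul,
      smul_eq_mul, mul_comm]
  by_cases hn : n ≤ Q.natDegree
  · have := congrArg (fun P => Polynomial.coeff P n) key
    simp only [Polynomial.finsetSum_coeff, Polynomial.coeff_monomial, Polynomial.coeff_zero] at this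
    rw [Finset.sum_ite_eq' (Finset.range (Q.natDegree + 1)) n] at this
    rw [if_pos (Finset.mem_range.2 (by omega))] at this
    exact this
  · rw [Polynomial.coeff_eq_zero_of_natDegree_lt (by omega)]
    simp

omit [Algebra ℂ F] in
theorem coeff_C_add_X_mul_C_pow (x y : F) (k n : ℕ) :
    ((C x + X * C y) ^ k : F[X]).coeff n = (k.choose n : F) * x ^ (k - n) * y ^ n := by
  have h : (C x + X * C y : F[X]) = (C y * X + C x) := by ring
  rw [h, add_comm, add_pow, Polynomial.finsetSum_coeff]
  have : ∀ m ∈ Finset.range (k + 1),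
      ((C x : F[X]) ^ m * (C y * X) ^ (k - m) * (k.choose m : F[X])).coeff n =
      if k - m = n then (k.choose n : F) * x ^ (k - n) * y ^ n else 0 := by
    intro m hm
    have hm' : m ≤ k := by simpa [Nat.lt_succ_iff] using hm
    have h2 : ((C x : F[X]) ^ m * (C y * X) ^ (k - m) * (k.choose m : F[X])) =
        C (x ^ m * y ^ (k - m) * (k.choose m : F)) * X ^ (k - m) := by
      rw [mul_pow]
      simp only [C_mul, C_pow, map_natCast]
      ring
    rw [h2, Polynomial.coeff_C_mul_X_pow]
    by_cases hh : n = k - m
    · subst hh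
      rw [if_pos rfl, if_pos rfl, Nat.choose_symm hm']
      have : k - (k - m) = m := by omega
      rw [this]
      ring
    · rw [if_neg hh, if_neg (fun h => hh h.symm)]
  rw [Finset.sum_congr rfl this]
  by_cases hn : n ≤ k
  · rw [Finset.sum_eq_single (k - n)]
    · rw [if_pos (by omega)]
    · intro m hm hmn
      have hm' : m ≤ k := by simpa [Nat.lt_succ_iff] using hm
      rw [if_neg (by omega)]
    · intro hmem
      exact absurd (Finset.mem_range.2 (by omega)) hmem
  · rw [Nat.choose_eq_zero_of_lt (by omega)]
    simp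

/-- binary polarization -/
theorem pow_mul_pow_mem (S : Submodule ℂ F) (x y g : F) (m n : ℕ)
    (h : ∀ t : ℂ, (x + algebraMap ℂ F t * y) ^ (m + n) * g ∈ S) :
    x ^ m * y ^ n * g ∈ S := by
  have h1 := coeff_mem_of_eval_mem S ((C x + X * C y) ^ (m + n) * C g) (by
    intro t
    simp only [eval_mul, eval_pow, eval_add, eval_C, eval_X]
    exact h t) n
  rw [Polynomial.coeff_mul_C, coeff_C_add_X_mul_C_pow] at h1
  have h2 : (((m + n).choose n : ℕ) : ℂ) ≠ 0 := by
    exact_mod_cast (Nat.choose_pos (by omega)).ne'
  have h3 := S.smul_mem (((m + n).choose n : ℕ) : ℂ)⁻¹ h1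
  have h4 : (((m + n).choose n : ℕ) : ℂ)⁻¹ • (((m + n).choose n : F) * x ^ (m + n - n) * y ^ n * g)
      = x ^ m * y ^ n * g := by
    have : (((m + n).choose n : ℕ) : F) = algebraMap ℂ F (((m + n).choose n : ℕ) : ℂ) := by simp
    rw [this, mul_assoc, mul_assoc, ← Algebra.smul_def, smul_smul, inv_mul_cancel₀ h2, one_smul,
      Nat.add_sub_cancel, mul_assoc]
  rwa [h4] at h3

end Coeff

section Main

variable {F : Type*} [CommRing F] [Algebra ℂ F] {U : Type*} [AddCommGroup U] [Module ℂ U]
variable {a : ℕ}

/-- span of the products `∏ i, (u_i at row i) ^ β i` -/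
def abT (e : Fin a → U →ₗ[ℂ] F) (β : Fin a → ℕ) : Submodule ℂ F :=
  Submodule.span ℂ (Set.range fun u : Fin a → U => ∏ i, (e i (u i)) ^ β i)

/-- span of the products `∏ i, m(row i) ^ κ i * (w_i at row i) ^ (β i - κ i)`, with the same `m`
in all rows. -/
def abS (e : Fin a → U →ₗ[ℂ] F) (κ β : Fin a → ℕ) : Submodule ℂ F :=
  Submodule.span ℂ (Set.range fun p : U × (Fin a → U) =>
    ∏ i, ((e i p.1) ^ κ i * (e i (p.2 i)) ^ (β i - κ i)))

/-- span of products of `N` linear forms, taken over all the rows -/
def abA (e : Fin a → U →ₗ[ℂ] F) (N : ℕ) : Submodule ℂ F :=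
  Submodule.span ℂ (Set.range fun l : Fin N → U => ∏ s, ∏ i, e i (l s))

theorem abS_step (e : Fin a → U →ₗ[ℂ] F) (κ β : Fin a → ℕ) (i0 : Fin a) (h0 : κ i0 = 0) (k : ℕ)
    (hk : (∑ i, κ i) + k ≤ β i0) : abS e κ β ≤ abS e (Function.update κ i0 k) β := by
  classical
  unfold abS
  rw [Submodule.span_le]
  rintro _ ⟨⟨l, w⟩, rfl⟩
  simp only [SetLike.mem_coe]
  set S' : Submodule ℂ F := Submodule.span ℂ (Set.range fun p : U × (Fin a → U) =>
    ∏ i, ((e i p.1) ^ (Function.update κ i0 k) i *
      (e i (p.2 i)) ^ (β i - (Function.update κ i0 k) i))) with hS'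
  set x := e i0 l with hx
  set y := e i0 (w i0) with hy
  set u := w i0 with hu
  set q := β i0 with hq
  set G : F := ∏ i ∈ Finset.univ.erase i0, (e i (w i)) ^ (β i - κ i) with hG
  set P : F[X] := ∏ i ∈ Finset.univ.erase i0, (C (e i l) + X * C (e i u)) ^ κ i with hP
  have hsum : (∑ i ∈ Finset.univ.erase i0, κ i) = ∑ i, κ i := by
    rw [← Finset.add_sum_erase Finset.univ κ (Finset.mem_univ i0), h0, zero_add]
  have hPdeg : P.natDegree ≤ ∑ i, κ i := by
    rw [← hsum, hP]
    refine (Polynomial.natDegree_prod_le _ _).trans (Finset.sum_le_sum fun i _ => ?_)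
    refine (Polynomial.natDegree_pow_le).trans ?_
    have : (C (e i l) + X * C (e i u) : F[X]).natDegree ≤ 1 := by
      compute_degree
    calc κ i * (C (e i l) + X * C (e i u) : F[X]).natDegree ≤ κ i * 1 :=
          Nat.mul_le_mul_left _ this
      _ = κ i := mul_one _
  -- the elements of `S'` that we use
  have hmem1 : ∀ (t : ℂ) (z : U), P.eval (algebraMap ℂ F t) *
      (x + algebraMap ℂ F t * y) ^ k * (e i0 z) ^ (q - k) * G ∈ S' := by
    intro t z
    have : P.eval (algebraMap ℂ F t) *
      (x + algebraMap ℂ F t * y) ^ k * (e i0 z) ^ (q - k) * G =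
      ∏ i, ((e i (l + t • u)) ^ (Function.update κ i0 k) i *
      (e i ((Function.update w i0 z) i)) ^ (β i - (Function.update κ i0 k) i)) := by
      rw [← Finset.mul_prod_erase Finset.univ _ (Finset.mem_univ i0)]
      simp only [Function.update_self]
      have h2 : ∏ i ∈ Finset.univ.erase i0, ((e i (l + t • u)) ^ (Function.update κ i0 k) i *
          (e i ((Function.update w i0 z) i)) ^ (β i - (Function.update κ i0 k) i)) =
          P.eval (algebraMap ℂ F t) * G := by
        rw [hP, hG, Polynomial.eval_prod, ← Finset.prod_mul_distrib]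
        refine Finset.prod_congr rfl fun i hi => ?_
        have hne : i ≠ i0 := (Finset.mem_erase.1 hi).1
        rw [Function.update_of_ne hne, Function.update_of_ne hne]
        simp only [eval_pow, eval_add, eval_mul, eval_C, eval_X, map_add, map_smul,
          Algebra.smul_def]
      rw [h2, map_add, map_smul, Algebra.smul_def]
      ring
    rw [this]
    exact Submodule.subset_span ⟨(l + t • u, Function.update w i0 z), rfl⟩
  have hmem2 : ∀ (t : ℂ) (j : ℕ), k + j ≤ q → P.eval (algebraMap ℂ F t) *
      (x + algebraMap ℂ F t * y) ^ k * (x ^ j * y ^ (q - k - j)) * G ∈ S' := by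
    intro t j hj
    have h3 := pow_mul_pow_mem S' x y (P.eval (algebraMap ℂ F t) *
      (x + algebraMap ℂ F t * y) ^ k * G) j (q - k - j) (by
        intro s
        have h4 := hmem1 t (l + s • u)
        have h5 : j + (q - k - j) = q - k := by omega
        rw [h5]
        rw [map_add, map_smul, Algebra.smul_def] at h4
        convert h4 using 1
        ring)
    convert h3 using 1
    ring
  have hmem3 : ∀ j : ℕ, k + j ≤ q → (P * (C x + X * C y) ^ k).coeff (k + j) *
      (x ^ j * y ^ (q - k - j) * G) ∈ S' := by
    intro j hj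
    have h3 := coeff_mem_of_eval_mem S' (P * (C x + X * C y) ^ k * C (x ^ j * y ^ (q - k - j) * G))
      (by
        intro t
        simp only [eval_mul, eval_pow, eval_add, eval_C, eval_X]
        have := hmem2 t j hj
        convert this using 1
        ring) (k + j)
    rwa [Polynomial.coeff_mul_C] at h3
  -- the functions `D j`
  have hD : ∀ s j : ℕ, (∑ i, κ i) < j + s → P.coeff j * x ^ j * y ^ (q - j) * G ∈ S' := by
    intro s
    induction s with
    | zero =>
      intro j hj
      rw [Polynomial.coeff_eq_zero_of_natDegree_lt (by omega)]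
      simp
    | succ s ih =>
      intro j hj
      by_cases hj' : (∑ i, κ i) < j
      · rw [Polynomial.coeff_eq_zero_of_natDegree_lt (by omega)]
        simp
      · have hjq : k + j ≤ q := by omega
        have h3 := hmem3 j hjq
        rw [Polynomial.coeff_mul, Finset.Nat.sum_antidiagonal_eq_sum_range_succ
          (fun i i' => P.coeff i * ((C x + X * C y) ^ k : F[X]).coeff i'), Finset.sum_mul] at h3
        have h4 : ∀ i ∈ Finset.range (k + j).succ, i ≠ j →
            P.coeff i * ((C x + X * C y) ^ k : F[X]).coeff (k + j - i) *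
              (x ^ j * y ^ (q - k - j) * G) ∈ S' := by
          intro i hi hij
          have hi' : i ≤ k + j := by simpa [Nat.lt_succ_iff] using hi
          rw [coeff_C_add_X_mul_C_pow]
          rcases Nat.lt_or_ge i j with hlt | hge
          · rw [Nat.choose_eq_zero_of_lt (by omega)]
            simp
          · have h5 : P.coeff i * ((k.choose (k + j - i) : ℕ) * x ^ (k - (k + j - i)) *
                y ^ (k + j - i)) * (x ^ j * y ^ (q - k - j) * G) =
                ((k.choose (k + j - i) : ℕ) : ℂ) • (P.coeff i * x ^ i * y ^ (q - i) * G) := by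
              have e1 : i = (k - (k + j - i)) + j := by omega
              have e2 : q - i = (k + j - i) + (q - k - j) := by omega
              rw [Algebra.smul_def, map_natCast]
              have e3 : x ^ i = x ^ (k - (k + j - i)) * x ^ j := by rw [← pow_add, ← e1]
              rw [e2, pow_add, e3]
              ring
            rw [h5]
            exact S'.smul_mem _ (ih i (by omega))
        have h6 : P.coeff j * ((C x + X * C y) ^ k : F[X]).coeff (k + j - j) *
              (x ^ j * y ^ (q - k - j) * G) = P.coeff j * x ^ j * y ^ (q - j) * G := by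
          rw [coeff_C_add_X_mul_C_pow]
          have e1 : k + j - j = k := by omega
          have e2 : q - j = k + (q - k - j) := by omega
          rw [e1, e2, Nat.choose_self, Nat.sub_self, pow_add]
          push_cast
          ring
        rw [← Finset.add_sum_erase _ _ (Finset.mem_range.2 (by omega : j < (k + j).succ)), h6] at h3
        have h7 := S'.sub_mem h3 (S'.sum_mem (fun i hi =>
          h4 i (Finset.mem_of_mem_erase hi) (Finset.ne_of_mem_erase hi)))
        rwa [add_sub_cancel_right] at h7
  have h8 := hD (∑ i, κ i + 1) 0 (by omega)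
  have h9 : P.coeff 0 = ∏ i ∈ Finset.univ.erase i0, (e i l) ^ κ i := by
    rw [Polynomial.coeff_zero_eq_eval_zero, hP, Polynomial.eval_prod]
    simp
  rw [h9] at h8
  convert h8 using 1
  rw [← Finset.mul_prod_erase Finset.univ _ (Finset.mem_univ i0), h0, Finset.prod_mul_distrib]
  simp only [pow_zero, one_mul, Nat.sub_zero, mul_one]
  ring

/-- Lemma 1 -/
theorem abT_le_abS (e : Fin a → U →ₗ[ℂ] F) (κ β : Fin a → ℕ)
    (h : ∀ r : Fin a, (∑ i ∈ Finset.univ.filter (fun i => i ≤ r), κ i) ≤ β r) :
    abT e β ≤ abS e κ β := by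
  classical
  have key : ∀ r : ℕ, r ≤ a → abT e β ≤ abS e (fun i => if (i : ℕ) < r then κ i else 0) β := by
    intro r
    induction r with
    | zero =>
      intro _
      unfold abT
      rw [Submodule.span_le]
      rintro _ ⟨u, rfl⟩
      refine Submodule.subset_span ⟨(0, u), ?_⟩
      simp
    | succ r ih =>
      intro hr
      refine (ih (by omega)).trans ?_
      have h1 := abS_step e (fun i => if (i : ℕ) < r then κ i else 0) β ⟨r, by omega⟩
        (by simp) (κ ⟨r, by omega⟩) (by
          refine le_trans (le_of_eq ?_) (h ⟨r, by omega⟩)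
          have h2 : (Finset.univ.filter (fun i : Fin a => i ≤ ⟨r, by omega⟩)) =
              insert (⟨r, by omega⟩ : Fin a) (Finset.univ.filter (fun i : Fin a => (i : ℕ) < r)) := by
            ext i
            simp only [Finset.mem_filter, Finset.mem_univ, true_and, Finset.mem_insert,
              Fin.le_def, Fin.ext_iff]
            omega
          rw [h2, Finset.sum_insert (by simp), Finset.sum_filter, add_comm])
      refine h1.trans (le_of_eq ?_)
      congr 1
      ext i
      by_cases hi : i = ⟨r, by omega⟩
      · subst hi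
        simp
      · rw [Function.update_of_ne hi]
        have : (i : ℕ) ≠ r := fun h => hi (Fin.ext h)
        by_cases h3 : (i : ℕ) < r
        · rw [if_pos h3, if_pos (by omega)]
        · rw [if_neg h3, if_neg (by omega)]
  refine (key a le_rfl).trans (le_of_eq ?_)
  congr 1
  ext i
  simp

end Main

end Vale.Agent.P181
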