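import Vale.Agent.P181.Local

/-!
# P181: assembly, abstract form
-/

namespace Vale.Agent.P181

open scoped BigOperators

variable {F : Type*} [CommRing F] [Algebra ℂ F] {U : Type*} [AddCommGroup U] [Module ℂ U]
variable {a : ℕ}

/-- peeling -/
theorem peel (e : Fin a → U →ₗ[ℂ] F) (j : ℕ) :
    abT e (fun i => j + (i : ℕ)) ≤ abA e j * abT e (fun i => (i : ℕ)) := by
  classical
  induction j with
  | zero =>
    intro x hx
    have := Submodule.mul_mem_mul (one_mem_abA e) hx
    simpa using this
  | succ j ih =>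
    have h1 : abT e (fun i => (j + 1) + (i : ℕ)) ≤
        abS e (fun _ => 1) (fun i => (j + 1) + (i : ℕ)) := by
      apply abT_le_abS
      intro r
      rw [Finset.sum_const, smul_eq_mul, mul_one]
      have : (Finset.univ.filter (fun i : Fin a => i ≤ r)) = Finset.Iic r := by
        ext i
        simp
      rw [this, Fin.card_Iic]
      omega
    refine h1.trans ?_
    unfold abS
    rw [Submodule.span_le]
    rintro _ ⟨⟨m, w⟩, rfl⟩
    simp only [SetLike.mem_coe]
    have h2 : (∏ i, ((e i m) ^ 1 * (e i (w i)) ^ (j + 1 + (i : ℕ) - 1))) =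
        (∏ i, e i m) * ∏ i, (e i (w i)) ^ (j + (i : ℕ)) := by
      rw [← Finset.prod_mul_distrib]
      refine Finset.prod_congr rfl fun i _ => ?_
      have : j + 1 + (i : ℕ) - 1 = j + i := by omega
      rw [this, pow_one]
    rw [h2]
    have h3 : (∏ i, (e i (w i)) ^ (j + (i : ℕ))) ∈ abA e j * abT e (fun i => (i : ℕ)) :=
      ih (Submodule.subset_span ⟨w, rfl⟩)
    have h4 := Submodule.mul_mem_mul (theta_mem_abA e m) h3
    rw [← mul_assoc] at h4
    have h5 : abA e 1 * abA e j ≤ abA e (j + 1) := by
      rw [add_comm j 1]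
      exact abA_mul_le e 1 j
    exact (mul_le_mul_left h5 _) h4

theorem sum_fin_val (a : ℕ) : (∑ i : Fin a, (i : ℕ)) = a * (a - 1) / 2 := by
  rw [Fin.sum_univ_eq_sum_range (fun i => i) a, Finset.sum_range_id]

/-- elements of `abA` are invariant -/
theorem abA_invariant (e : Fin a → U →ₗ[ℂ] F) (ρ : F →ₐ[ℂ] F) (σ : Equiv.Perm (Fin a))
    (hρ : ∀ i u, ρ (e i u) = e (σ i) u) {N : ℕ} {x : F} (hx : x ∈ abA e N) : ρ x = x := by
  unfold abA at hx
  induction hx using Submodule.span_induction with
  | mem x h =>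
    obtain ⟨l, rfl⟩ := h
    rw [map_prod]
    refine Finset.prod_congr rfl fun s _ => ?_
    rw [map_prod]
    simp only [hρ]
    exact Equiv.prod_comp σ (fun i => e i (l s))
  | zero => exact map_zero ρ
  | add x y _ _ hx hy => rw [map_add, hx, hy]
  | smul c x _ hx => rw [map_smul, hx]

/-- Main theorem, abstract form. -/
theorem symm_mem_abA (e : Fin a → U →ₗ[ℂ] F) (ρ : Equiv.Perm (Fin a) → F →ₐ[ℂ] F)
    (hρ : ∀ σ i u, ρ σ (e i u) = e (σ i) u) (b : ℕ) (hb : a * (a - 1) ^ 2 ≤ 2 * b)
    {f : F} (hf : f ∈ abT e (fun _ => b)) : (∑ σ, ρ σ f) ∈ abA e b := by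
  classical
  set N := a * (a - 1) / 2 with hN
  have hN2 : 2 * N = a * (a - 1) := by
    have h2 : Even (a * (a - 1)) := by
      rcases a with _ | n
      · simp
      · simpa [mul_comm] using Nat.even_mul_succ_self n
    rw [hN]
    exact Nat.mul_div_cancel' h2.two_dvd
  have hiN : ∀ i : Fin a, (i : ℕ) ≤ N := by
    intro i
    have hi := i.2
    have h3 : 2 * (i : ℕ) ≤ a * (a - 1) := by
      rcases Nat.lt_or_ge a 2 with h | h
      · have : (i : ℕ) = 0 := by omega
        rw [this]
        simp
      · exact Nat.mul_le_mul h (by omega)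
    omega
  have hsumκ : (∑ i : Fin a, (N - (i : ℕ))) = (a - 1) * N := by
    have h4 : (∑ i : Fin a, (N - (i : ℕ))) + ∑ i : Fin a, (i : ℕ) = a * N := by
      rw [← Finset.sum_add_distrib]
      rw [Finset.sum_congr rfl (fun i _ => Nat.sub_add_cancel (hiN i))]
      simp
    rw [sum_fin_val, ← hN] at h4
    rcases a with _ | n
    · simp
    · simp only [Nat.add_sub_cancel]
      have : (n + 1) * N = n * N + N := by ring
      omega
  have hbig : (a - 1) * N ≤ b := by
    have h5 : 2 * ((a - 1) * N) = a * (a - 1) ^ 2 := by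
      calc 2 * ((a - 1) * N) = (a - 1) * (2 * N) := by ring
        _ = a * (a - 1) ^ 2 := by rw [hN2]; ring
    omega
  have hNb : N ≤ b := by
    rcases Nat.lt_or_ge a 2 with h | h
    · have : N = 0 := by
        have : a * (a - 1) = 0 := by
          interval_cases a <;> rfl
        omega
      omega
    · calc N = 1 * N := (one_mul N).symm
        _ ≤ (a - 1) * N := Nat.mul_le_mul_right _ (by omega)
        _ ≤ b := hbig
  -- the linear map `symmetrization`
  set L : F →ₗ[ℂ] F := ∑ σ, (ρ σ).toLinearMap with hL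
  have hLapp : ∀ x, L x = ∑ σ, ρ σ x := by
    intro x
    simp [hL]
  have h1 : abT e (fun _ => b) ≤ abS e (fun i => N - (i : ℕ)) (fun _ => b) := by
    apply abT_le_abS
    intro r
    refine le_trans ?_ hbig
    rw [← hsumκ]
    exact Finset.sum_le_sum_of_subset (Finset.subset_univ _)
  have h2 : abS e (fun i => N - (i : ℕ)) (fun _ => b) ≤ (abA e b).comap L := by
    unfold abS
    rw [Submodule.span_le]
    rintro _ ⟨⟨m, w⟩, rfl⟩
    simp only [SetLike.mem_coe]
    set x0 := ∏ i, (e i m) ^ (N - (i : ℕ)) with hx0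
    have h3 : (∏ i, ((e i m) ^ (N - (i : ℕ)) * (e i (w i)) ^ (b - (N - (i : ℕ))))) =
        x0 * ∏ i, (e i (w i)) ^ ((b - N) + (i : ℕ)) := by
      rw [hx0, ← Finset.prod_mul_distrib]
      refine Finset.prod_congr rfl fun i _ => ?_
      have : b - (N - (i : ℕ)) = (b - N) + (i : ℕ) := by
        have := hiN i
        omega
      rw [this]
    rw [h3]
    have h4 : (∏ i, (e i (w i)) ^ ((b - N) + (i : ℕ))) ∈
        abA e (b - N) * abT e (fun i => (i : ℕ)) :=
      peel e (b - N) (Submodule.subset_span ⟨w, rfl⟩)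
    have h5 : abA e (b - N) * abT e (fun i => (i : ℕ)) ≤
        (abA e b).comap (L ∘ₗ LinearMap.mulLeft ℂ x0) := by
      rw [Submodule.mul_le]
      intro x hx y hy
      have h6 : L (x0 * (x * y)) = x * L (x0 * y) := by
        rw [hLapp, hLapp, Finset.mul_sum]
        refine Finset.sum_congr rfl fun σ _ => ?_
        have h7 : ρ σ x = x := abA_invariant e (ρ σ) σ (hρ σ) hx
        rw [map_mul, map_mul, h7, map_mul]
        ring
      have h8 : L (x0 * y) ∈ abA e N := by
        have h9 : abT e (fun i => (i : ℕ)) ≤ (abA e N).comap (L ∘ₗ LinearMap.mulLeft ℂ x0) := by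
          unfold abT
          rw [Submodule.span_le]
          rintro _ ⟨u, rfl⟩
          simp only [SetLike.mem_coe, Submodule.mem_comap, LinearMap.comp_apply,
            LinearMap.mulLeft_apply]
          have h10 := local_mem e N (fun i => (i : ℕ)) (by rw [sum_fin_val]) m u
          convert h10 using 1
          rw [hLapp]
          refine Finset.sum_congr rfl fun σ _ => ?_
          rw [hx0, map_mul, map_prod, map_prod, ← Finset.prod_mul_distrib]
          simp only [map_pow, hρ]
        exact h9 hy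
      simp only [Submodule.mem_comap, LinearMap.comp_apply, LinearMap.mulLeft_apply]
      rw [h6]
      have h11 := abA_mul_mem e hx h8
      rwa [Nat.sub_add_cancel hNb] at h11
    have := h5 h4
    simpa only [Submodule.mem_comap, LinearMap.comp_apply, LinearMap.mulLeft_apply] using this
  have := h2 (h1 hf)
  rwa [Submodule.mem_comap, hLapp] at this

end Vale.Agent.P181
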