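import Mathlib

/-!
# P181: statement level definitions (symmetric powers)

`Sym n M` is Mathlib's symmetric power of `M` (the quotient of the `n`-fold tensor power by the
action of the permutations), with Mathlib's additive group and module structures.
-/

namespace Vale.Agent.P181

universe u v w

open scoped BigOperators

/-- The `n`-th symmetric power of a complex vector space `M` (Mathlib's `SymmetricPower`). -/
def Sym (n : ℕ) (M : Type u) [AddCommGroup M] [Module ℂ M] : Type u :=
  SymmetricPower ℂ (Fin n) M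

noncomputable instance instSymGroup (n : ℕ) (M : Type u) [AddCommGroup M] [Module ℂ M] :
    AddCommGroup (Sym n M) :=
  SymmetricPower.instAddCommGroup (Fin n) ℂ M

noncomputable instance instSymModule (n : ℕ) (M : Type u) [AddCommGroup M] [Module ℂ M] :
    Module ℂ (Sym n M) :=
  SymmetricPower.module ℂ (Fin n) M

/-- The product `m_1 ⋯ m_n` in the `n`-th symmetric power. -/
noncomputable def sprod {n : ℕ} {M : Type u} [AddCommGroup M] [Module ℂ M] (m : Fin n → M) :
    Sym n M :=
  SymmetricPower.tprod ℂ m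

/-- The product `m_1 ⋯ m_n` in the `n`-th symmetric power, as a multilinear map. -/
noncomputable def sprodM (n : ℕ) (M : Type u) [AddCommGroup M] [Module ℂ M] :
    MultilinearMap ℂ (fun _ : Fin n => M) (Sym n M) :=
  SymmetricPower.tprod ℂ (ι := Fin n) (M := M)

theorem symLift_aux {n : ℕ} {M : Type u} {N : Type v} [AddCommGroup M] [Module ℂ M]
    [AddCommGroup N] [Module ℂ N] (f : MultilinearMap ℂ (fun _ : Fin n => M) N)
    (hf : ∀ (e : Equiv.Perm (Fin n)) (m : Fin n → M), f (fun i => m (e i)) = f m) :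
    addConGen (SymmetricPower.Rel ℂ (Fin n) M) ≤
      AddCon.ker (PiTensorProduct.lift f).toAddMonoidHom := by
  rw [AddCon.addConGen_le]
  rintro x y ⟨e, m⟩
  rw [AddCon.ker_rel]
  simp only [LinearMap.toAddMonoidHom_coe, PiTensorProduct.lift.tprod]
  exact (hf e m).symm

/-- Universal property of the symmetric power: a symmetric multilinear map factors through it. -/
noncomputable def symLift {n : ℕ} {M : Type u} {N : Type v} [AddCommGroup M] [Module ℂ M]
    [AddCommGroup N] [Module ℂ N] (f : MultilinearMap ℂ (fun _ : Fin n => M) N)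
    (hf : ∀ (e : Equiv.Perm (Fin n)) (m : Fin n → M), f (fun i => m (e i)) = f m) :
    Sym n M →ₗ[ℂ] N where
  toFun := AddCon.lift (addConGen (SymmetricPower.Rel ℂ (Fin n) M))
    (PiTensorProduct.lift f).toAddMonoidHom (symLift_aux f hf)
  map_add' := map_add (AddCon.lift (addConGen (SymmetricPower.Rel ℂ (Fin n) M))
    (PiTensorProduct.lift f).toAddMonoidHom (symLift_aux f hf))
  map_smul' := by
    intro c x
    induction x using AddCon.induction_on with
    | H x => exact (PiTensorProduct.lift f).map_smul c x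

theorem symLift_sprod {n : ℕ} {M : Type u} {N : Type v} [AddCommGroup M] [Module ℂ M]
    [AddCommGroup N] [Module ℂ N] (f : MultilinearMap ℂ (fun _ : Fin n => M) N)
    (hf : ∀ (e : Equiv.Perm (Fin n)) (m : Fin n → M), f (fun i => m (e i)) = f m)
    (m : Fin n → M) : symLift f hf (sprod m) = f m := by
  change PiTensorProduct.lift f (PiTensorProduct.tprod ℂ m) = f m
  rw [PiTensorProduct.lift.tprod]

theorem sprod_perm {n : ℕ} {M : Type u} [AddCommGroup M] [Module ℂ M] (e : Equiv.Perm (Fin n))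
    (m : Fin n → M) : (sprod (fun i => m (e i)) : Sym n M) = sprod m :=
  SymmetricPower.tprod_equiv e m

theorem exists_symMap (n : ℕ) {M : Type u} {N : Type v} [AddCommGroup M] [Module ℂ M]
    [AddCommGroup N] [Module ℂ N] (g : M →ₗ[ℂ] N) :
    ∃ f : Sym n M →ₗ[ℂ] Sym n N, ∀ m : Fin n → M, f (sprod m) = sprod fun i => g (m i) := by
  have h : ∀ (e : Equiv.Perm (Fin n)) (m : Fin n → M),
      ((sprodM n N).compLinearMap (fun _ => g)) (fun i => m (e i)) =
        ((sprodM n N).compLinearMap (fun _ => g)) m :=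
    fun e m => sprod_perm e (fun i => g (m i))
  refine ⟨symLift ((sprodM n N).compLinearMap (fun _ => g)) h, fun m => ?_⟩
  rw [symLift_sprod]
  rfl

/-- Functoriality of the symmetric power: the (unique) linear map with
`m_1 ⋯ m_n ↦ g m_1 ⋯ g m_n`. -/
noncomputable def symMap (n : ℕ) {M : Type u} {N : Type v} [AddCommGroup M] [Module ℂ M]
    [AddCommGroup N] [Module ℂ N] (g : M →ₗ[ℂ] N) : Sym n M →ₗ[ℂ] Sym n N :=
  (exists_symMap n g).choose

theorem symMap_sprod (n : ℕ) {M : Type u} {N : Type v} [AddCommGroup M] [Module ℂ M]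
    [AddCommGroup N] [Module ℂ N] (g : M →ₗ[ℂ] N) (m : Fin n → M) :
    symMap n g (sprod m) = sprod (fun i => g (m i)) :=
  (exists_symMap n g).choose_spec m

/-- `Ψ` is the canonical (Foulkes-Howe) map: it sends `∏_i (v_{i1} ⋯ v_{ib})` to
`∑_{σ_1,…,σ_a ∈ S_b} ∏_j (v_{1σ_1(j)} ⋯ v_{aσ_a(j)})`. -/
def IsFoulkesHoweMap {a b : ℕ} {V : Type u} [AddCommGroup V] [Module ℂ V]
    (Ψ : Sym a (Sym b V) →ₗ[ℂ] Sym b (Sym a V)) : Prop :=
  ∀ v : Fin a → Fin b → V, Ψ (sprod fun i => sprod fun j => v i j) =
    ∑ σ : Fin a → Equiv.Perm (Fin b), sprod fun j => sprod fun i => v i (σ i j)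

/-- `Ψ` commutes with the action of every `g ∈ GL(V)`. -/
def IsGLEquivariant {a b : ℕ} {V : Type u} [AddCommGroup V] [Module ℂ V]
    (Ψ : Sym a (Sym b V) →ₗ[ℂ] Sym b (Sym a V)) : Prop :=
  ∀ (g : V ≃ₗ[ℂ] V) (x : Sym a (Sym b V)), Ψ (symMap a (symMap b g.toLinearMap) x) =
    symMap b (symMap a g.toLinearMap) (Ψ x)

end Vale.Agent.P181
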