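import Vale.Agent.P181.Defs

/-!
# P181: symmetric powers: polarization, row-wise lifting, the Foulkes-Howe map
-/

namespace Vale.Agent.P181

universe u v w

open scoped BigOperators

theorem span_sprod_eq_top (n : ℕ) (M : Type u) [AddCommGroup M] [Module ℂ M] :
    Submodule.span ℂ (Set.range fun m : Fin n → M => (sprod m : Sym n M)) = ⊤ :=
  SymmetricPower.span_tprod_eq_top ℂ (Fin n) M

/-- inclusion-exclusion form of polarization -/
theorem polarization {n : ℕ} {M : Type u} [AddCommGroup M] [Module ℂ M] (m : Fin n → M) :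
    (∑ s ∈ (Finset.univ : Finset (Fin n)).powerset,
      (∏ _i ∈ (Finset.univ \ s), (-1 : ℂ)) • (sprod (fun _ : Fin n => ∑ i ∈ s, m i) : Sym n M)) =
      (n.factorial : ℂ) • sprod m := by
  classical
  have h1 : ∀ s : Finset (Fin n), (sprod (fun _ : Fin n => ∑ i ∈ s, m i) : Sym n M) =
      ∑ κ : Fin n → Fin n, (if ∀ j, κ j ∈ s then (1 : ℂ) else 0) • sprod (fun j => m (κ j)) := by
    intro s
    have h2 := (sprodM n M).map_sum_finset
      (fun _ i => m i) (fun _ => s)
    refine h2.trans ?_
    simp only [ite_smul, one_smul, zero_smul]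
    rw [← Finset.sum_filter]
    refine Finset.sum_congr ?_ (fun _ _ => rfl)
    ext κ
    simp [Fintype.mem_piFinset]
  simp only [h1, Finset.smul_sum, smul_smul]
  rw [Finset.sum_comm]
  have h3 : ∀ κ : Fin n → Fin n, (∑ s ∈ (Finset.univ : Finset (Fin n)).powerset,
      (∏ _i ∈ (Finset.univ \ s), (-1 : ℂ)) * (if ∀ j, κ j ∈ s then (1 : ℂ) else 0)) =
      if Function.Surjective κ then 1 else 0 := by
    intro κ
    have h4 : ∀ s ∈ (Finset.univ : Finset (Fin n)).powerset,
        (∏ _i ∈ (Finset.univ \ s), (-1 : ℂ)) * (if ∀ j, κ j ∈ s then (1 : ℂ) else 0) =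
        (∏ _i ∈ s, (1 : ℂ)) * ∏ i ∈ Finset.univ \ s, (if ∃ j, κ j = i then (0 : ℂ) else -1) := by
      intro s _
      rw [Finset.prod_const_one, one_mul]
      by_cases h : ∀ j, κ j ∈ s
      · rw [if_pos h, mul_one]
        refine Finset.prod_congr rfl fun i hi => ?_
        rw [if_neg]
        rintro ⟨j, rfl⟩
        exact (Finset.mem_sdiff.1 hi).2 (h j)
      · rw [if_neg h, mul_zero]
        push Not at h
        obtain ⟨j, hj⟩ := h
        refine (Finset.prod_eq_zero (Finset.mem_sdiff.2 ⟨Finset.mem_univ (κ j), hj⟩) ?_).symm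
        rw [if_pos ⟨j, rfl⟩]
    rw [Finset.sum_congr rfl h4, ← Finset.prod_add]
    by_cases h : Function.Surjective κ
    · rw [if_pos h]
      refine Finset.prod_eq_one fun i _ => ?_
      rw [if_pos (h i), add_zero]
    · rw [if_neg h]
      rw [Function.Surjective] at h
      push Not at h
      obtain ⟨i, hi⟩ := h
      refine Finset.prod_eq_zero (Finset.mem_univ i) ?_
      rw [if_neg]
      · ring
      · rintro ⟨j, hj⟩
        exact hi j hj
  simp only [← Finset.sum_smul, h3]
  have h5 : (∑ κ : Fin n → Fin n, (if Function.Surjective κ then (1 : ℂ) else 0) •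
      (sprod (fun j => m (κ j)) : Sym n M)) =
      ∑ κ : Fin n → Fin n, (if Function.Surjective κ then (1 : ℂ) else 0) • sprod m := by
    refine Finset.sum_congr rfl fun κ _ => ?_
    by_cases h : Function.Surjective κ
    · have hb : Function.Bijective κ := Finite.injective_iff_bijective.1
        (Finite.injective_iff_surjective.2 h)
      have := sprod_perm (Equiv.ofBijective κ hb) m
      simp only [Equiv.ofBijective_apply] at this
      rw [this]
    · rw [if_neg h, zero_smul, zero_smul]
  rw [h5, ← Finset.sum_smul]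
  congr 1
  rw [Finset.sum_ite, Finset.sum_const_zero, add_zero, Finset.sum_const, nsmul_eq_mul, mul_one]
  have h6 : (Finset.univ.filter (fun κ : Fin n → Fin n => Function.Surjective κ)).card =
      Fintype.card (Equiv.Perm (Fin n)) := by
    rw [← Finset.card_univ]
    refine (Finset.card_bij (fun (σ : Equiv.Perm (Fin n)) _ => (σ : Fin n → Fin n)) ?_ ?_ ?_).symm
    · intro σ _
      simp [σ.surjective]
    · intro σ _ τ _ h
      exact Equiv.coe_fn_injective h
    · intro κ hκ
      have h : Function.Surjective κ := by simpa using hκ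
      have hb : Function.Bijective κ := Finite.injective_iff_bijective.1
        (Finite.injective_iff_surjective.2 h)
      exact ⟨Equiv.ofBijective κ hb, Finset.mem_univ _, rfl⟩
  rw [h6, Fintype.card_perm, Fintype.card_fin]

/-- (SP1) polarization: the powers `m^n` span `Sym n M`. -/
theorem span_pow_eq_top (n : ℕ) (M : Type u) [AddCommGroup M] [Module ℂ M] :
    Submodule.span ℂ (Set.range fun m : M => (sprod (fun _ : Fin n => m) : Sym n M)) = ⊤ := by
  rw [eq_top_iff, ← span_sprod_eq_top, Submodule.span_le]
  rintro _ ⟨m, rfl⟩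
  have h0 : (n.factorial : ℂ) ≠ 0 := by exact_mod_cast n.factorial_ne_zero
  have h1 : (sprod m : Sym n M) = (n.factorial : ℂ)⁻¹ • ((n.factorial : ℂ) • sprod m) := by
    rw [smul_smul, inv_mul_cancel₀ h0, one_smul]
  simp only [SetLike.mem_coe]
  rw [h1, ← polarization]
  refine Submodule.smul_mem _ _ (Submodule.sum_mem _ fun s _ => Submodule.smul_mem _ _ ?_)
  exact Submodule.subset_span ⟨∑ i ∈ s, m i, rfl⟩

/-- two linear maps out of `Sym n M` that agree on products of a spanning family agree. -/
theorem sym_ext_of_span {n : ℕ} {M : Type u} {N : Type v} [AddCommGroup M] [Module ℂ M]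
    [AddCommGroup N] [Module ℂ N] {γ : Type w} (g : γ → M)
    (hg : Submodule.span ℂ (Set.range g) = ⊤) {φ φ' : Sym n M →ₗ[ℂ] N}
    (h : ∀ j : Fin n → γ, φ (sprod fun i => g (j i)) = φ' (sprod fun i => g (j i))) : φ = φ' := by
  have h1 : φ.compMultilinearMap (sprodM n M) =
      φ'.compMultilinearMap (sprodM n M) := by
    refine MultilinearMap.ext_of_span_eq_top (g := fun _ => g) (fun _ => hg) (fun j => ?_)
    exact h j
  apply LinearMap.ext_on (span_sprod_eq_top n M)
  rintro _ ⟨m, rfl⟩
  exact congrArg (fun f : MultilinearMap ℂ (fun _ : Fin n => M) N => f m) h1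

/-- (SP5') a linear map out of `Sym a (Sym b V)` is determined by the `∏ v_i ^ b`. -/
theorem ext_pow_pow {a b : ℕ} {V : Type u} {N : Type v} [AddCommGroup V] [Module ℂ V]
    [AddCommGroup N] [Module ℂ N] {φ φ' : Sym a (Sym b V) →ₗ[ℂ] N}
    (h : ∀ v : Fin a → V, φ (sprod fun i => sprod (fun _ : Fin b => v i)) =
      φ' (sprod fun i => sprod (fun _ : Fin b => v i))) : φ = φ' :=
  sym_ext_of_span (fun m : V => (sprod (fun _ : Fin b => m) : Sym b V)) (span_pow_eq_top b V) h

/-- (SP2) row-wise lifting. `F` is a function of an `a × b` array which is multilinear and symmetric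
in each row; then it factors through the product of symmetric powers of the rows. -/
theorem exists_rowLift {b : ℕ} {M : Type u} {N : Type v} [AddCommGroup M] [Module ℂ M]
    [AddCommGroup N] [Module ℂ N] (a : ℕ) : ∀ (F : (Fin a → Fin b → M) → N)
    (_ : ∀ (w : Fin a → Fin b → M) (i : Fin a), ∃ f : MultilinearMap ℂ (fun _ : Fin b => M) N,
      (∀ x : Fin b → M, f x = F (Function.update w i x)) ∧
      ∀ (e : Equiv.Perm (Fin b)) (x : Fin b → M), f (fun j => x (e j)) = f x),
    ∃ G : MultilinearMap ℂ (fun _ : Fin a => Sym b M) N,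
      ∀ w : Fin a → Fin b → M, G (fun i => sprod (w i)) = F w := by
  classical
  induction a with
  | zero =>
    intro F _
    refine ⟨MultilinearMap.constOfIsEmpty ℂ _ (F (fun i => i.elim0)), fun w => ?_⟩
    rw [MultilinearMap.constOfIsEmpty_apply]
    exact congrArg F (Subsingleton.elim _ _)
  | succ a ih =>
    intro F hF
    have h1 : ∀ x : Fin b → M, ∃ G : MultilinearMap ℂ (fun _ : Fin a => Sym b M) N,
        ∀ w : Fin a → Fin b → M, G (fun i => sprod (w i)) = F (Fin.cons x w) := by
      intro x
      apply ih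
      intro w i
      obtain ⟨f, hf1, hf2⟩ := hF (Fin.cons x w) i.succ
      refine ⟨f, fun y => ?_, hf2⟩
      rw [hf1, Fin.cons_update]
    choose G hG using h1
    have hext : ∀ (G1 G2 : MultilinearMap ℂ (fun _ : Fin a => Sym b M) N),
        (∀ w : Fin a → Fin b → M, G1 (fun i => sprod (w i)) = G2 (fun i => sprod (w i))) →
        G1 = G2 := by
      intro G1 G2 h
      exact MultilinearMap.ext_of_span_eq_top
        (g := fun _ (m : Fin b → M) => (sprod m : Sym b M))
        (fun _ => span_sprod_eq_top b M) h
    have hf : ∀ w : Fin a → Fin b → M, ∃ f : MultilinearMap ℂ (fun _ : Fin b => M) N,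
        (∀ x : Fin b → M, f x = F (Fin.cons x w)) ∧
        ∀ (e : Equiv.Perm (Fin b)) (x : Fin b → M), f (fun j => x (e j)) = f x := by
      intro w
      obtain ⟨f, hf1, hf2⟩ := hF (Fin.cons 0 w) 0
      refine ⟨f, fun x => ?_, hf2⟩
      rw [hf1, Fin.update_cons_zero]
    let H : MultilinearMap ℂ (fun _ : Fin b => M) (MultilinearMap ℂ (fun _ : Fin a => Sym b M) N) :=
      { toFun := G
        map_update_add' := by
          intro _ x j y z
          apply hext
          intro w
          obtain ⟨f, hf1, _⟩ := hf w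
          rw [add_apply, hG, hG, hG, ← hf1, ← hf1, ← hf1]
          convert f.map_update_add x j y z
        map_update_smul' := by
          intro _ x j c y
          apply hext
          intro w
          obtain ⟨f, hf1, _⟩ := hf w
          rw [smul_apply, hG, hG, ← hf1, ← hf1]
          convert f.map_update_smul x j c y }
    have hH : ∀ x, H x = G x := fun _ => rfl
    have hHsymm : ∀ (e : Equiv.Perm (Fin b)) (x : Fin b → M), H (fun i => x (e i)) = H x := by
      intro e x
      apply hext
      intro w
      obtain ⟨f, hf1, hf2⟩ := hf w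
      rw [hH, hH, hG, hG, ← hf1, ← hf1, hf2]
    refine ⟨LinearMap.uncurryLeft (M := fun _ : Fin (a + 1) => Sym b M) (symLift H hHsymm),
      fun w => ?_⟩
    rw [LinearMap.uncurryLeft_apply]
    rw [symLift_sprod]
    have h2 : (Fin.tail fun i => (sprod (w i) : Sym b M)) = fun i => sprod (Fin.tail w i) := rfl
    rw [h2, hH, hG, Fin.cons_self_tail]

/-- (SP3) the Foulkes-Howe map exists. -/
theorem exists_foulkesHowe (a b : ℕ) (V : Type u) [AddCommGroup V] [Module ℂ V] :
    ∃ Ψ : Sym a (Sym b V) →ₗ[ℂ] Sym b (Sym a V),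
      ∀ w : Fin a → Fin b → V,
        Ψ (sprod fun i => sprod (w i)) =
          ∑ σ : Fin a → Equiv.Perm (Fin b), sprod fun j => sprod fun i => w i (σ i j) := by
  classical
  obtain ⟨G, hG⟩ := exists_rowLift (b := b) (M := V) a
    (fun w : Fin a → Fin b → V => (∑ σ : Fin a → Equiv.Perm (Fin b),
      sprod fun j => sprod fun i => w i (σ i j) : Sym b (Sym a V))) (by
      intro w i
      -- the multilinear map in row `i`
      let f0 : (Fin a → Equiv.Perm (Fin b)) → MultilinearMap ℂ (fun _ : Fin b => V)
          (Sym b (Sym a V)) := fun σ =>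
        ((sprodM b (Sym a V)).compLinearMap
          (fun j => (sprodM a V).toLinearMap
            (fun i' => w i' (σ i' j)) i)).domDomCongr (σ i)
      have hf0 : ∀ σ x, f0 σ x = sprod fun j => sprod fun i' =>
          (Function.update w i x) i' (σ i' j) := by
        intro σ x
        simp only [f0, MultilinearMap.domDomCongr_apply, MultilinearMap.compLinearMap_apply,
          MultilinearMap.toLinearMap_apply]
        congr 1
        funext j
        congr 1
        funext i'
        by_cases h : i' = i
        · subst h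
          simp
        · rw [Function.update_of_ne h, Function.update_of_ne h]
      refine ⟨∑ σ, f0 σ, fun x => ?_, fun e x => ?_⟩
      · rw [sum_apply]
        exact Finset.sum_congr rfl fun σ _ => hf0 σ x
      · rw [sum_apply, sum_apply]
        refine Fintype.sum_equiv (Equiv.piCongrRight fun i' => if i' = i then
          (Equiv.mulLeft e : Equiv.Perm (Fin b) ≃ Equiv.Perm (Fin b)) else Equiv.refl _) _ _
          (fun σ => ?_)
        rw [hf0, hf0]
        congr 1
        funext j
        congr 1
        funext i'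
        by_cases h : i' = i
        · subst h
          simp
        · rw [Function.update_of_ne h, Function.update_of_ne h]
          simp [h])
  refine ⟨symLift G ?_, fun w => ?_⟩
  · intro e m
    have : G.domDomCongr e = G := by
      refine MultilinearMap.ext_of_span_eq_top
        (g := fun _ (m : Fin b → V) => (sprod m : Sym b V))
        (fun _ => span_sprod_eq_top b V) (fun w => ?_)
      rw [MultilinearMap.domDomCongr_apply]
      change G (fun i => sprod ((fun i' => w (e i')) i)) = G (fun i => sprod (w i))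
      rw [hG, hG]
      refine Fintype.sum_equiv (Equiv.arrowCongr e (Equiv.refl _)) _ _ (fun σ => ?_)
      congr 1
      funext j
      have h3 := sprod_perm e (fun i => w i ((Equiv.arrowCongr e (Equiv.refl _) σ) i j))
      rw [← h3]
      simp
    have h4 := congrArg (fun f : MultilinearMap ℂ (fun _ : Fin a => Sym b V) (Sym b (Sym a V)) =>
      f m) this
    simpa using h4
  · rw [symLift_sprod, hG]

/-- evaluation functional of a linear form on the `a`-th symmetric power -/
theorem exists_evalFunctional (a : ℕ) (V : Type u) [AddCommGroup V] [Module ℂ V]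
    (l : Module.Dual ℂ V) : ∃ Λ : Sym a V →ₗ[ℂ] ℂ, ∀ w : Fin a → V,
      Λ (sprod w) = ∏ i, l (w i) := by
  refine ⟨symLift ((MultilinearMap.mkPiAlgebra ℂ (Fin a) ℂ).compLinearMap (fun _ => l)) ?_,
    fun w => ?_⟩
  · intro e m
    simp only [MultilinearMap.compLinearMap_apply, MultilinearMap.mkPiAlgebra_apply]
    exact Equiv.prod_comp e (fun i => l (m i))
  · rw [symLift_sprod]
    simp

/-- (SP4) product functionals on `Sym b (Sym a V)`. -/
theorem exists_prodFunctional (a b : ℕ) (V : Type u) [AddCommGroup V] [Module ℂ V]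
    (l : Fin b → Module.Dual ℂ V) :
    ∃ Λ : Sym b (Sym a V) →ₗ[ℂ] ℂ, ∀ w : Fin b → Fin a → V,
      Λ (sprod fun j => sprod (w j)) = ∑ τ : Equiv.Perm (Fin b), ∏ j, ∏ i, l (τ j) (w j i) := by
  classical
  choose Λ0 hΛ0 using fun l => exists_evalFunctional a V l
  refine ⟨symLift (∑ τ : Equiv.Perm (Fin b),
    (MultilinearMap.mkPiAlgebra ℂ (Fin b) ℂ).compLinearMap (fun j => Λ0 (l (τ j)))) ?_,
    fun w => ?_⟩
  · intro e m
    simp only [sum_apply, MultilinearMap.compLinearMap_apply,
      MultilinearMap.mkPiAlgebra_apply]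
    refine Fintype.sum_equiv (Equiv.mulRight e⁻¹) _ _ (fun τ => ?_)
    rw [← Equiv.prod_comp e (fun j => (Λ0 (l ((Equiv.mulRight e⁻¹ τ) j))) (m j))]
    simp
  · rw [symLift_sprod]
    simp only [sum_apply, MultilinearMap.compLinearMap_apply,
      MultilinearMap.mkPiAlgebra_apply, hΛ0]

end Vale.Agent.P181
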