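import Vale.Agent.P181.Assemble
import Vale.Agent.P181.SymPow

/-!
# P181: from the function level statement to the injectivity of the Foulkes-Howe map
-/

namespace Vale.Agent.P181

universe u v w

open scoped BigOperators

section Abstract

variable {F : Type*} [CommRing F] [Algebra ℂ F] {U : Type*} [AddCommGroup U] [Module ℂ U]
variable {a : ℕ}

theorem abT_mul_mem_aux (e : Fin a → U →ₗ[ℂ] F) (β γ : Fin a → ℕ) (S : Finset (Fin a)) :
    ∀ (u w : Fin a → U), (∏ i ∈ S, ((e i (u i)) ^ β i * (e i (w i)) ^ γ i)) *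
      (∏ i ∈ Finset.univ \ S, (e i (u i)) ^ (β i + γ i)) ∈ abT e (β + γ) := by
  classical
  induction S using Finset.induction with
  | empty =>
    intro u w
    refine Submodule.subset_span ⟨u, ?_⟩
    simp
  | insert i0 S hi0 ih =>
    intro u w
    rw [Finset.prod_insert hi0]
    have h1 := pow_mul_pow_mem (abT e (β + γ)) (e i0 (u i0)) (e i0 (w i0))
      ((∏ i ∈ S, ((e i (u i)) ^ β i * (e i (w i)) ^ γ i)) *
        (∏ i ∈ Finset.univ \ insert i0 S, (e i (u i)) ^ (β i + γ i))) (β i0) (γ i0) (by
        intro t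
        have h2 := ih (Function.update u i0 (u i0 + t • w i0)) w
        have h3 : Finset.univ \ S = insert i0 (Finset.univ \ insert i0 S) := by
          ext i
          by_cases h : i = i0
          · subst h
            simp [hi0]
          · simp [h]
        rw [h3, Finset.prod_insert (by simp), Function.update_self] at h2
        have h4 : ∏ i ∈ S, ((e i (Function.update u i0 (u i0 + t • w i0) i)) ^ β i *
            (e i (w i)) ^ γ i) = ∏ i ∈ S, ((e i (u i)) ^ β i * (e i (w i)) ^ γ i) := by
          refine Finset.prod_congr rfl fun i hi => ?_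
          have hne : i ≠ i0 := by
            rintro rfl
            exact hi0 hi
          rw [Function.update_of_ne hne]
        have h5 : ∏ i ∈ Finset.univ \ insert i0 S,
            (e i (Function.update u i0 (u i0 + t • w i0) i)) ^ (β i + γ i) =
            ∏ i ∈ Finset.univ \ insert i0 S, (e i (u i)) ^ (β i + γ i) := by
          refine Finset.prod_congr rfl fun i hi => ?_
          rw [Function.update_of_ne]
          rintro rfl
          simp at hi
        rw [h4, h5, map_add, map_smul, Algebra.smul_def] at h2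
        convert h2 using 1
        ring)
    convert h1 using 1
    ring

theorem abT_mul_le (e : Fin a → U →ₗ[ℂ] F) (β γ : Fin a → ℕ) :
    abT e β * abT e γ ≤ abT e (β + γ) := by
  conv_lhs => unfold abT
  rw [Submodule.span_mul_span, Submodule.span_le]
  rintro _ ⟨_, ⟨u, rfl⟩, _, ⟨w, rfl⟩, rfl⟩
  have := abT_mul_mem_aux e β γ Finset.univ u w
  rw [Finset.sdiff_self, Finset.prod_empty, mul_one, Finset.prod_mul_distrib] at this
  exact this

theorem prod_mem_abT (e : Fin a → U →ₗ[ℂ] F) (b : ℕ) (l : Fin a → Fin b → U) :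
    (∏ i, ∏ j, e i (l i j)) ∈ abT e (fun _ => b) := by
  induction b with
  | zero =>
    refine Submodule.subset_span ⟨fun _ => 0, ?_⟩
    simp
  | succ b ih =>
    have h1 : (∏ i, e i (l i 0)) ∈ abT e (fun _ : Fin a => 1) :=
      Submodule.subset_span ⟨fun i => l i 0, by simp⟩
    have h2 := abT_mul_le e _ _ (Submodule.mul_mem_mul (ih (fun i j => l i j.succ)) h1)
    have h3 : ((fun _ : Fin a => b) + (fun _ : Fin a => 1)) = (fun _ : Fin a => b + 1) := rfl
    rw [h3, ← Finset.prod_mul_distrib] at h2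
    convert h2 using 1
    refine Finset.prod_congr rfl fun i _ => ?_
    rw [Fin.prod_univ_succ, mul_comm]

end Abstract

section Concrete

variable {a : ℕ} {V : Type u} [AddCommGroup V] [Module ℂ V]

/-- evaluation of a linear form at the `i`-th vector -/
def evF (i : Fin a) : Module.Dual ℂ V →ₗ[ℂ] ((Fin a → V) → ℂ) where
  toFun l := fun v => l (v i)
  map_add' _ _ := rfl
  map_smul' _ _ := rfl

theorem evF_apply (i : Fin a) (l : Module.Dual ℂ V) (v : Fin a → V) : evF i l v = l (v i) := rfl

/-- permutation action on functions -/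
def permF (σ : Equiv.Perm (Fin a)) : ((Fin a → V) → ℂ) →ₐ[ℂ] ((Fin a → V) → ℂ) where
  toFun f := fun v => f (fun i => v (σ i))
  map_one' := rfl
  map_mul' _ _ := rfl
  map_zero' := rfl
  map_add' _ _ := rfl
  commutes' _ := rfl

/-- (SP6) -/
theorem functional_mem_abT (a b : ℕ) (V : Type u) [AddCommGroup V] [Module ℂ V]
    [FiniteDimensional ℂ V] (lam : Sym a (Sym b V) →ₗ[ℂ] ℂ) :
    (fun v : Fin a → V => lam (sprod (fun i => sprod (fun _ : Fin b => v i)))) ∈
      abT (evF (V := V)) (fun _ : Fin a => b) := by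
  classical
  set B := Module.finBasis ℂ V with hB
  have h1 : ∀ x : V, (sprod (fun _ : Fin b => x) : Sym b V) =
      ∑ κ : Fin b → Fin (Module.finrank ℂ V), (∏ j, B.coord (κ j) x) •
        sprod (fun j => B (κ j)) := by
    intro x
    have h2 : (sprod (fun _ : Fin b => x) : Sym b V) =
        sprod (fun _ : Fin b => ∑ k, B.coord k x • B k) := by
      congr 1
      funext j
      exact (B.sum_repr x).symm
    rw [h2]
    have h3 := (sprodM b V).map_sum
      (fun _ k => B.coord k x • B k)
    refine h3.trans (Finset.sum_congr rfl fun κ _ => ?_)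
    exact (sprodM b V).map_smul_univ
      (fun j => B.coord (κ j) x) (fun j => B (κ j))
  have h4 : ∀ v : Fin a → V, (sprod (fun i => sprod (fun _ : Fin b => v i)) : Sym a (Sym b V)) =
      ∑ K : Fin a → Fin b → Fin (Module.finrank ℂ V), (∏ i, ∏ j, B.coord (K i j) (v i)) •
        sprod (fun i => sprod (fun j => B (K i j))) := by
    intro v
    have h5 : (fun i => (sprod (fun _ : Fin b => v i) : Sym b V)) = fun i =>
        ∑ κ : Fin b → Fin (Module.finrank ℂ V), (∏ j, B.coord (κ j) (v i)) •
          sprod (fun j => B (κ j)) := funext fun i => h1 (v i)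
    rw [h5]
    have h3 := (sprodM a (Sym b V)).map_sum
      (fun i (κ : Fin b → Fin (Module.finrank ℂ V)) => (∏ j, B.coord (κ j) (v i)) •
          (sprod (fun j => B (κ j)) : Sym b V))
    refine h3.trans (Finset.sum_congr rfl fun K _ => ?_)
    exact (sprodM a (Sym b V)).map_smul_univ
      (fun i => ∏ j, B.coord (K i j) (v i)) (fun i => sprod (fun j => B (K i j)))
  have h6 : (fun v : Fin a → V => lam (sprod (fun i => sprod (fun _ : Fin b => v i)))) =
      ∑ K : Fin a → Fin b → Fin (Module.finrank ℂ V),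
        lam (sprod (fun i => sprod (fun j => B (K i j)))) •
          ∏ i, ∏ j, evF i (B.coord (K i j)) := by
    funext v
    rw [h4, map_sum, Finset.sum_apply]
    refine Finset.sum_congr rfl fun K _ => ?_
    rw [map_smul, smul_eq_mul, Pi.smul_apply, smul_eq_mul, mul_comm]
    congr 1
    rw [Finset.prod_apply]
    refine Finset.prod_congr rfl fun i _ => ?_
    rw [Finset.prod_apply]
    rfl
  rw [h6]
  exact Submodule.sum_mem _ fun K _ => Submodule.smul_mem _ _ (prod_mem_abT _ b _)

/-- the key separation statement: if the function-level statement holds at `(a, b)` then the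
Foulkes-Howe map is injective. -/
theorem injective_of_symm_mem (a b : ℕ) (V : Type u) [AddCommGroup V] [Module ℂ V]
    [FiniteDimensional ℂ V]
    (hsymm : ∀ f ∈ abT (evF (V := V)) (fun _ : Fin a => b),
      (∑ σ, permF σ f) ∈ abA (evF (V := V) (a := a)) b)
    (Ψ : Sym a (Sym b V) →ₗ[ℂ] Sym b (Sym a V))
    (hΨ : ∀ w : Fin a → Fin b → V, Ψ (sprod fun i => sprod (w i)) =
      ∑ σ : Fin a → Equiv.Perm (Fin b), sprod fun j => sprod fun i => w i (σ i j)) :
    Function.Injective Ψ := by
  classical
  rw [← LinearMap.ker_eq_bot, LinearMap.ker_eq_bot']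
  intro ξ hξ
  rw [← Module.forall_dual_apply_eq_zero_iff ℂ]
  intro lam
  -- functionals of the form `Λ ∘ Ψ`
  have hker : ∀ Λ : Sym b (Sym a V) →ₗ[ℂ] ℂ, (Λ ∘ₗ Ψ) ξ = 0 := by
    intro Λ
    rw [LinearMap.comp_apply, hξ, map_zero]
  set f : (Fin a → V) → ℂ :=
    fun v : Fin a → V => lam (sprod (fun i => sprod (fun _ : Fin b => v i))) with hf
  have h1 : f ∈ abT (evF (V := V)) (fun _ : Fin a => b) := functional_mem_abT a b V lam
  have h2 := hsymm f h1
  have h3 : (∑ σ : Equiv.Perm (Fin a), permF σ f) = (a.factorial : ℂ) • f := by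
    have h4 : ∀ σ : Equiv.Perm (Fin a), permF σ f = f := by
      intro σ
      funext v
      change lam (sprod (fun i => sprod (fun _ : Fin b => v (σ i)))) = _
      rw [sprod_perm σ (fun i => (sprod (fun _ : Fin b => v i) : Sym b V))]
    rw [Finset.sum_congr rfl (fun σ _ => h4 σ), Finset.sum_const, Finset.card_univ,
      Fintype.card_perm, Fintype.card_fin]
    exact (Nat.cast_smul_eq_nsmul ℂ _ _).symm
  rw [h3] at h2
  have h0 : (a.factorial : ℂ) ≠ 0 := by exact_mod_cast a.factorial_ne_zero
  have h5 : f ∈ abA (evF (V := V) (a := a)) b := by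
    have := Submodule.smul_mem _ (a.factorial : ℂ)⁻¹ h2
    rwa [smul_smul, inv_mul_cancel₀ h0, one_smul] at this
  -- every element of `abA` comes from a functional `Λ ∘ Ψ`
  have h6 : ∀ g ∈ abA (evF (V := V) (a := a)) b, ∃ Λ : Sym b (Sym a V) →ₗ[ℂ] ℂ,
      ∀ v : Fin a → V, g v = (Λ ∘ₗ Ψ) (sprod (fun i => sprod (fun _ : Fin b => v i))) := by
    intro g hg
    unfold abA at hg
    induction hg using Submodule.span_induction with
    | mem x h =>
      obtain ⟨l, rfl⟩ := h
      obtain ⟨Λ, hΛ⟩ := exists_prodFunctional a b V l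
      set c : ℂ := (Fintype.card (Fin a → Equiv.Perm (Fin b)) : ℂ) *
        (Fintype.card (Equiv.Perm (Fin b)) : ℂ) with hc
      have hc0 : c ≠ 0 := by
        rw [hc]
        refine mul_ne_zero ?_ ?_
        · exact_mod_cast Fintype.card_ne_zero
        · exact_mod_cast Fintype.card_ne_zero
      refine ⟨c⁻¹ • Λ, fun v => ?_⟩
      rw [LinearMap.comp_apply, LinearMap.smul_apply, hΨ, map_sum]
      simp only [hΛ]
      have h7 : ∀ τ : Equiv.Perm (Fin b), (∏ j, ∏ i, l (τ j) (v i)) =
          ∏ s, ∏ i, l s (v i) := fun τ => Equiv.prod_comp τ (fun s => ∏ i, l s (v i))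
      simp only [h7, Finset.sum_const, Finset.card_univ, nsmul_eq_mul, smul_eq_mul]
      rw [Finset.prod_apply]
      simp only [Finset.prod_apply, evF_apply]
      rw [← mul_assoc, ← mul_assoc, mul_assoc c⁻¹, ← hc, inv_mul_cancel₀ hc0, one_mul]
    | zero => exact ⟨0, fun v => by simp⟩
    | add x y _ _ hx hy =>
      obtain ⟨Λ1, h1⟩ := hx
      obtain ⟨Λ2, h2⟩ := hy
      refine ⟨Λ1 + Λ2, fun v => ?_⟩
      rw [Pi.add_apply, h1, h2]
      simp
    | smul c x _ hx =>
      obtain ⟨Λ1, h1⟩ := hx
      refine ⟨c • Λ1, fun v => ?_⟩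
      rw [Pi.smul_apply, h1]
      simp
  obtain ⟨Λ, hΛ⟩ := h6 f h5
  have h8 : lam = Λ ∘ₗ Ψ := ext_pow_pow hΛ
  rw [h8]
  exact hker Λ

/-- The main theorem at the level of the Foulkes-Howe map. -/
theorem foulkesHowe_injective (a b : ℕ) (hb : a * (a - 1) ^ 2 ≤ 2 * b) (V : Type u)
    [AddCommGroup V] [Module ℂ V] [FiniteDimensional ℂ V]
    (Ψ : Sym a (Sym b V) →ₗ[ℂ] Sym b (Sym a V))
    (hΨ : ∀ w : Fin a → Fin b → V, Ψ (sprod fun i => sprod (w i)) =
      ∑ σ : Fin a → Equiv.Perm (Fin b), sprod fun j => sprod fun i => w i (σ i j)) :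
    Function.Injective Ψ :=
  injective_of_symm_mem a b V
    (fun _ hf => symm_mem_abA evF permF (fun _ _ _ => rfl) b hb hf) Ψ hΨ

end Concrete

end Vale.Agent.P181
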