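import Vale.Agent.P181.Alg

/-!
# P181: the local statement and peeling, abstract form
-/

namespace Vale.Agent.P181

open scoped BigOperators
open Polynomial

section Roots

theorem multiset_fin {α : Type*} (m : Multiset α) (d : ℕ) (h : Multiset.card m = d) :
    ∃ z : Fin d → α, ∀ f : α → ℂ, (m.map f).prod = ∏ s, f (z s) := by
  induction m using Quotient.inductionOn with
  | h l =>
    have hl : l.length = d := by simpa using h
    subst hl
    refine ⟨l.get, fun f => ?_⟩
    change ((l : Multiset α).map f).prod = _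
    rw [Multiset.map_coe, Multiset.prod_coe]
    have h1 : l.map f = List.ofFn (fun i => f (l.get i)) := by
      have h2 : (fun i => f (l.get i)) = f ∘ l.get := rfl
      rw [h2, ← List.map_ofFn, List.ofFn_get]
    rw [h1, List.prod_ofFn]

theorem exists_roots_aux (d : ℕ) (hd : d ≠ 0) (t : ℂ) : ∃ z : Fin d → ℂ,
    ∀ x : ℂ, x ^ d + t = ∏ s, (x + z s) := by
  classical
  set p : ℂ[X] := X ^ d + C t with hp
  have hmonic : p.Monic := Polynomial.monic_X_pow_add_C t hd
  have hdeg : p.natDegree = d := Polynomial.natDegree_X_pow_add_C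
  have hcard : Multiset.card p.roots = p.natDegree :=
    Polynomial.splits_iff_card_roots.1 (IsAlgClosed.splits p)
  have hprod := Polynomial.prod_multiset_X_sub_C_of_monic_of_roots_card_eq hmonic hcard
  obtain ⟨z, hz⟩ := multiset_fin p.roots d (hcard.trans hdeg)
  refine ⟨fun s => - z s, fun x => ?_⟩
  have h1 : p.eval x = x ^ d + t := by simp [hp]
  have h2 : p.eval x = (p.roots.map (fun r => x - r)).prod := by
    conv_lhs => rw [← hprod]
    rw [Polynomial.eval_multiset_prod, Multiset.map_map]
    simp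
  rw [← h1, h2, hz]
  simp [sub_eq_add_neg]

/-- `x^d + t y^d` is a product of `d` linear factors over `ℂ`. -/
theorem exists_roots (d : ℕ) (hd : d ≠ 0) (t : ℂ) (F : Type*) [CommRing F] [Algebra ℂ F] :
    ∃ z : Fin d → ℂ, ∀ x y : F,
      x ^ d + algebraMap ℂ F t * y ^ d = ∏ s, (x + algebraMap ℂ F (z s) * y) := by
  obtain ⟨z, hz⟩ := exists_roots_aux d hd t
  refine ⟨z, fun x y => ?_⟩
  have key : (MvPolynomial.X 0 ^ d + MvPolynomial.C t * MvPolynomial.X 1 ^ d :
      MvPolynomial (Fin 2) ℂ) = ∏ s, (MvPolynomial.X 0 + MvPolynomial.C (z s) * MvPolynomial.X 1) := by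
    apply MvPolynomial.funext
    intro v
    simp only [map_add, map_mul, map_pow, map_prod, MvPolynomial.eval_X, MvPolynomial.eval_C]
    by_cases h : v 1 = 0
    · rw [h]
      simp [hd]
    · have h1 := hz (v 0 / v 1)
      have h2 : v 0 ^ d + t * v 1 ^ d = ((v 0 / v 1) ^ d + t) * v 1 ^ d := by
        rw [add_mul, div_pow, div_mul_cancel₀ _ (pow_ne_zero d h)]
      rw [h2, h1]
      have h3 : v 1 ^ d = ∏ _s : Fin d, v 1 := by simp
      rw [h3, ← Finset.prod_mul_distrib]
      refine Finset.prod_congr rfl fun s _ => ?_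
      rw [add_mul, div_mul_cancel₀ _ h]
  have h4 := congrArg (MvPolynomial.aeval (R := ℂ) ![x, y]) key
  simpa [map_prod, MvPolynomial.algebraMap_eq] using h4

end Roots

section Local

variable {F : Type*} [CommRing F] [Algebra ℂ F] {U : Type*} [AddCommGroup U] [Module ℂ U]
variable {a : ℕ}

theorem abA_mul_le (e : Fin a → U →ₗ[ℂ] F) (M N : ℕ) :
    abA e M * abA e N ≤ abA e (M + N) := by
  unfold abA
  rw [Submodule.span_mul_span, Submodule.span_le]
  rintro _ ⟨_, ⟨l, rfl⟩, _, ⟨l', rfl⟩, rfl⟩
  refine Submodule.subset_span ⟨Fin.append l l', ?_⟩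
  simp [Fin.prod_univ_add]

theorem abA_mul_mem (e : Fin a → U →ₗ[ℂ] F) {M N : ℕ} {x y : F} (hx : x ∈ abA e M)
    (hy : y ∈ abA e N) : x * y ∈ abA e (M + N) :=
  abA_mul_le e M N (Submodule.mul_mem_mul hx hy)

theorem one_mem_abA (e : Fin a → U →ₗ[ℂ] F) : (1 : F) ∈ abA e 0 :=
  Submodule.subset_span ⟨fun _ => 0, by simp⟩

theorem theta_mem_abA (e : Fin a → U →ₗ[ℂ] F) (l : U) : (∏ i, e i l) ∈ abA e 1 :=
  Submodule.subset_span ⟨fun _ => l, by simp⟩

theorem theta_pow_mem_abA (e : Fin a → U →ₗ[ℂ] F) (l : U) (n : ℕ) :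
    (∏ i, e i l) ^ n ∈ abA e n :=
  Submodule.subset_span ⟨fun _ => l, by simp⟩

omit [Algebra ℂ F] in
theorem coeff_one_prod {ι : Type*} [DecidableEq ι] (s : Finset ι) (x y : ι → F) :
    (∏ i ∈ s, (C (x i) + X * C (y i)) : F[X]).coeff 1 = ∑ i ∈ s, y i * ∏ j ∈ s.erase i, x j := by
  have h1 := Polynomial.coeff_derivative (∏ i ∈ s, (C (x i) + X * C (y i)) : F[X]) 0
  rw [Polynomial.derivative_prod_finset] at h1
  simp only [Nat.cast_zero, zero_add, mul_one] at h1
  rw [← h1, Polynomial.coeff_zero_eq_eval_zero, Polynomial.eval_finsetSum]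
  refine Finset.sum_congr rfl fun i _ => ?_
  rw [eval_mul, Polynomial.eval_prod, mul_comm]
  simp

/-- the `d`-th polarized power sum is in `abA e d`. -/
theorem powerSum_mem (e : Fin a → U →ₗ[ℂ] F) (l u : U) (d : ℕ) :
    (∑ i, (e i u) ^ d * ∏ j ∈ Finset.univ.erase i, (e j l) ^ d) ∈ abA e d := by
  classical
  have h1 := coeff_mem_of_eval_mem (abA e d)
    (∏ i, (C ((e i l) ^ d) + X * C ((e i u) ^ d))) (by
      intro t
      rw [Polynomial.eval_prod]
      simp only [eval_mul, eval_add, eval_C, eval_X]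
      by_cases hd : d = 0
      · subst hd
        simp only [pow_zero, mul_one, Finset.prod_const]
        have h2 : (1 + algebraMap ℂ F t) ^ (Finset.univ : Finset (Fin a)).card =
            ((1 + t) ^ (Finset.univ : Finset (Fin a)).card) • (1 : F) := by
          rw [Algebra.smul_def, mul_one, map_pow, map_add, map_one]
        rw [h2]
        exact Submodule.smul_mem _ _ (one_mem_abA e)
      · obtain ⟨z, hz⟩ := exists_roots d hd t F
        simp only [hz]
        rw [Finset.prod_comm]
        refine Submodule.subset_span ⟨fun s => l + z s • u, ?_⟩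
        simp only [map_add, map_smul, Algebra.smul_def]) 1
  rwa [coeff_one_prod] at h1

/-- sum over injective placements -/
noncomputable def symM {r : ℕ} (z : Fin r → Fin a → F) : F :=
  ∑ ι : Fin r ↪ Fin a, ∏ j, z j (ι j)

omit [Algebra ℂ F] in
theorem symM_cons {r : ℕ} (z : Fin r → Fin a → F) (y : Fin a → F) :
    symM (Fin.cons y z : Fin (r + 1) → Fin a → F) =
      symM z * ∑ i, y i - ∑ j, symM (Function.update z j (z j * y)) := by
  classical
  have h1 : symM (Fin.cons y z : Fin (r + 1) → Fin a → F) =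
      ∑ p : (Σ ι : Fin r ↪ Fin a, {i // i ∉ Set.range ι}), y p.2 * ∏ j, z j (p.1 j) := by
    unfold symM
    refine Fintype.sum_equiv (Equiv.embeddingFinSucc r (Fin a)) _ _ (fun ι => ?_)
    rw [Fin.prod_univ_succ]
    simp only [Fin.cons_zero, Fin.cons_succ]
    rfl
  rw [h1, Fintype.sum_sigma]
  have h2 : ∀ ι : Fin r ↪ Fin a, (∑ i : {i // i ∉ Set.range ι}, y i * ∏ j, z j (ι j)) =
      (∏ j, z j (ι j)) * (∑ i, y i) - ∑ j, (∏ j', z j' (ι j')) * y (ι j) := by
    intro ι
    rw [← Finset.sum_mul, mul_comm, ← Finset.mul_sum, ← mul_sub]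
    congr 1
    have h3 : (∑ i, y i) = (∑ i : {i // i ∈ Set.range ι}, y i) +
        ∑ i : {i // i ∉ Set.range ι}, y i := by
      rw [← Fintype.sum_subtype_add_sum_subtype (fun i => i ∈ Set.range ι) y]
      exact congrArg₂ (· + ·) (Finset.sum_congr (by ext; simp) (fun _ _ => rfl))
        (Finset.sum_congr (by ext; simp) (fun _ _ => rfl))
    have h4 : (∑ i : {i // i ∈ Set.range ι}, y i) = ∑ j, y (ι j) := by
      refine (Fintype.sum_equiv (Equiv.ofInjective ι ι.injective) _ _ (fun j => ?_)).symm
      simp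
    rw [h3, h4]
    ring
  rw [Finset.sum_congr rfl (fun ι _ => h2 ι), Finset.sum_sub_distrib, ← Finset.sum_mul]
  congr 1
  rw [Finset.sum_comm]
  refine Finset.sum_congr rfl fun j _ => ?_
  unfold symM
  refine Finset.sum_congr rfl fun ι _ => ?_
  rw [← Finset.mul_prod_erase Finset.univ _ (Finset.mem_univ j),
    ← Finset.mul_prod_erase Finset.univ (fun j' => Function.update z j (z j * y) j' (ι j'))
      (Finset.mem_univ j)]
  have h5 : ∏ x ∈ Finset.univ.erase j, Function.update z j (z j * y) x (ι x) =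
      ∏ x ∈ Finset.univ.erase j, z x (ι x) :=
    Finset.prod_congr rfl fun x hx => by rw [Function.update_of_ne (Finset.ne_of_mem_erase hx)]
  rw [h5, Function.update_self, Pi.mul_apply]
  ring

/-- the row family `i ↦ u(row i) ∏_{j ≠ i} l(row j)` -/
def rowZ (e : Fin a → U →ₗ[ℂ] F) (l u : U) : Fin a → F :=
  fun i => e i u * ∏ j ∈ Finset.univ.erase i, e j l

/-- span of the `d`-th powers of the row families -/
def zspan (e : Fin a → U →ₗ[ℂ] F) (l : U) (d : ℕ) : Submodule ℂ (Fin a → F) :=
  Submodule.span ℂ (Set.range fun u : U => (rowZ e l u) ^ d)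

theorem zspan_mul_mem (e : Fin a → U →ₗ[ℂ] F) (l : U) (m n : ℕ) {x y : Fin a → F}
    (hx : x ∈ zspan e l m) (hy : y ∈ zspan e l n) : x * y ∈ zspan e l (m + n) := by
  have h : zspan e l m * zspan e l n ≤ zspan e l (m + n) := by
    conv_lhs => unfold zspan
    rw [Submodule.span_mul_span, Submodule.span_le]
    rintro _ ⟨_, ⟨u, rfl⟩, _, ⟨w, rfl⟩, rfl⟩
    have := pow_mul_pow_mem (zspan e l (m + n)) (rowZ e l u) (rowZ e l w) 1 m n (by
      intro t
      have h1 : rowZ e l u + algebraMap ℂ (Fin a → F) t * rowZ e l w = rowZ e l (u + t • w) := by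
        funext i
        simp only [rowZ, Pi.add_apply, Pi.mul_apply, map_add, map_smul, Algebra.smul_def,
          Pi.algebraMap_apply]
        ring
      rw [h1, mul_one]
      exact Submodule.subset_span ⟨u + t • w, rfl⟩)
    simpa using this
  exact h (Submodule.mul_mem_mul hx hy)

theorem sum_mem_of_zspan (e : Fin a → U →ₗ[ℂ] F) (l : U) (d : ℕ) {z : Fin a → F}
    (hz : z ∈ zspan e l d) : (∑ i, z i) ∈ abA e d := by
  have h : zspan e l d ≤ (abA e d).comap
      (∑ i : Fin a, (LinearMap.proj i : (Fin a → F) →ₗ[ℂ] F)) := by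
    unfold zspan
    rw [Submodule.span_le]
    rintro _ ⟨u, rfl⟩
    have := powerSum_mem e l u d
    simp only [SetLike.mem_coe, Submodule.mem_comap, LinearMap.coe_sum, Finset.sum_apply,
      LinearMap.coe_proj, Function.eval]
    convert this using 2 with i
    simp only [rowZ, Pi.pow_apply, mul_pow, Finset.prod_pow]
  have := h hz
  simpa [Submodule.mem_comap] using this

theorem symM_mem (e : Fin a → U →ₗ[ℂ] F) (l : U) : ∀ (r : ℕ) (d : Fin r → ℕ)
    (z : Fin r → Fin a → F), (∀ j, z j ∈ zspan e l (d j)) → symM z ∈ abA e (∑ j, d j) := by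
  intro r
  induction r with
  | zero =>
    intro d z _
    have : symM z = 1 := by
      unfold symM
      simp
    rw [this]
    simpa using one_mem_abA e
  | succ r ih =>
    intro d z hz
    have h0 : z = Fin.cons (z 0) (Fin.tail z) := (Fin.cons_self_tail z).symm
    rw [h0, symM_cons, Fin.sum_univ_succ]
    refine Submodule.sub_mem _ ?_ (Submodule.sum_mem _ fun j _ => ?_)
    · rw [add_comm]
      refine abA_mul_mem e (ih (fun j => d j.succ) (Fin.tail z) (fun j => hz j.succ)) ?_
      exact sum_mem_of_zspan e l (d 0) (hz 0)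
    · have h1 := ih (Function.update (fun j => d j.succ) j (d j.succ + d 0))
        (Function.update (Fin.tail z) j (Fin.tail z j * z 0)) (by
          intro j'
          by_cases h : j' = j
          · subst h
            rw [Function.update_self, Function.update_self]
            exact zspan_mul_mem e l _ _ (hz j'.succ) (hz 0)
          · rw [Function.update_of_ne h, Function.update_of_ne h]
            exact hz j'.succ)
      have h2 : (∑ j', Function.update (fun j => d j.succ) j (d j.succ + d 0) j') =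
          d 0 + ∑ j : Fin r, d j.succ := by
        rw [Finset.sum_update_of_mem (Finset.mem_univ j)]
        rw [← Finset.add_sum_erase Finset.univ (fun j : Fin r => d j.succ) (Finset.mem_univ j)]
        rw [Finset.sdiff_singleton_eq_erase]
        ring
      rwa [h2] at h1

/-- The local statement. -/
theorem local_mem (e : Fin a → U →ₗ[ℂ] F) (N : ℕ) (d : Fin a → ℕ) (hd : ∑ i, d i ≤ N) (l : U)
    (u : Fin a → U) :
    (∑ σ : Equiv.Perm (Fin a), ∏ i, (e (σ i) l) ^ (N - d i) * (e (σ i) (u i)) ^ (d i)) ∈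
      abA e N := by
  classical
  have h1 := symM_mem e l a d (fun j => (rowZ e l (u j)) ^ (d j))
    (fun j => Submodule.subset_span ⟨u j, rfl⟩)
  have h2 := abA_mul_mem e h1 (theta_pow_mem_abA e l (N - ∑ j, d j))
  rw [Nat.add_sub_cancel' hd] at h2
  convert h2 using 1
  unfold symM
  rw [Finset.sum_mul]
  refine Fintype.sum_equiv (Equiv.embeddingEquivOfFinite (Fin a)).symm _ _
    (fun σ => ?_)
  have h3 : ∀ j, ((Equiv.embeddingEquivOfFinite (Fin a)).symm σ) j = σ j :=
    fun j => rfl
  simp only [h3, Pi.pow_apply, rowZ, mul_pow]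
  rw [Finset.prod_mul_distrib, Finset.prod_mul_distrib]
  have h4 : ∏ j, (∏ i ∈ Finset.univ.erase (σ j), e i l) ^ (d j) =
      ∏ j, (e (σ j) l) ^ (∑ i, d i - d j) := by
    have h5 : ∀ j, (∏ i ∈ Finset.univ.erase (σ j), e i l) ^ (d j) =
        ∏ i, if i = j then 1 else (e (σ i) l) ^ (d j) := by
      intro j
      rw [← Finset.prod_pow]
      rw [← Finset.mul_prod_erase Finset.univ _ (Finset.mem_univ j), if_pos rfl, one_mul]
      refine Finset.prod_bij' (fun i _ => σ.symm i) (fun i _ => σ i) ?_ ?_ ?_ ?_ ?_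
      · intro i hi
        refine Finset.mem_erase.2 ⟨?_, Finset.mem_univ _⟩
        intro h
        exact (Finset.mem_erase.1 hi).1 (by rw [← h, Equiv.apply_symm_apply])
      · intro i hi
        refine Finset.mem_erase.2 ⟨?_, Finset.mem_univ _⟩
        intro h
        exact (Finset.mem_erase.1 hi).1 (σ.injective h)
      · intro i _
        simp
      · intro i _
        simp
      · intro i hi
        have : σ.symm i ≠ j := by
          intro h
          exact (Finset.mem_erase.1 hi).1 (by rw [← h, Equiv.apply_symm_apply])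
        rw [if_neg this, Equiv.apply_symm_apply]
    rw [Finset.prod_congr rfl (fun j _ => h5 j), Finset.prod_comm]
    refine Finset.prod_congr rfl fun i _ => ?_
    have h6 : ∀ j, (if i = j then (1 : F) else (e (σ i) l) ^ (d j)) =
        (e (σ i) l) ^ (if i = j then 0 else d j) := by
      intro j
      split_ifs <;> simp
    rw [Finset.prod_congr rfl (fun j _ => h6 j), Finset.prod_pow_eq_pow_sum]
    congr 1
    rw [← Finset.add_sum_erase Finset.univ d (Finset.mem_univ i), Nat.add_sub_cancel_left,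
      ← Finset.add_sum_erase Finset.univ _ (Finset.mem_univ i), if_pos rfl, zero_add]
    refine Finset.sum_congr rfl fun j hj => ?_
    rw [if_neg (Finset.ne_of_mem_erase hj).symm]
  have h7 : (∏ i, e i l) ^ (N - ∑ j, d j) = ∏ j, (e (σ j) l) ^ (N - ∑ j, d j) := by
    rw [← Equiv.prod_comp σ (fun i => e i l), Finset.prod_pow]
  rw [h4, h7, mul_assoc, mul_comm]
  congr 1
  rw [← Finset.prod_mul_distrib]
  refine Finset.prod_congr rfl fun i _ => ?_
  rw [← pow_add]
  congr 1
  have := Finset.single_le_sum (fun j _ => Nat.zero_le (d j)) (Finset.mem_univ i)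
  omega

end Local

end Vale.Agent.P181
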