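import Vale.Agent.P181.Final

/-!
# P181: the quadratic bound, by induction on the number of rows
-/

namespace Vale.Agent.P181

open scoped BigOperators

namespace Quad

section Abstract

variable {F : Type*} [CommRing F] [Algebra ℂ F] {U : Type*} [AddCommGroup U] [Module ℂ U]

/-- extension of a permutation of the rows `1, …, r` fixing the row `0` -/
def extP {r : ℕ} (τ : Equiv.Perm (Fin r)) : Equiv.Perm (Fin (r + 1)) :=
  Equiv.Perm.decomposeFin.symm (0, τ)

theorem extP_zero {r : ℕ} (τ : Equiv.Perm (Fin r)) : extP τ 0 = 0 := by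
  simp [extP]

theorem extP_succ {r : ℕ} (τ : Equiv.Perm (Fin r)) (i : Fin r) : extP τ i.succ = (τ i).succ := by
  simp [extP]

theorem extP_mul {r : ℕ} (σ τ : Equiv.Perm (Fin r)) : extP (σ * τ) = extP σ * extP τ := by
  ext i
  refine Fin.cases ?_ (fun j => ?_) i
  · simp only [extP_zero, Equiv.Perm.mul_apply]
  · simp only [extP_succ, Equiv.Perm.mul_apply]

/-- powers of linear forms in the row `0` -/
def Z {r : ℕ} (e : Fin (r + 1) → U →ₗ[ℂ] F) (c : ℕ) : Submodule ℂ F :=
  Submodule.span ℂ (Set.range fun z : U => (e 0 z) ^ c)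

/-- one step of the extraction -/
theorem step {r : ℕ} (e : Fin (r + 1) → U →ₗ[ℂ] F) (q : ℕ) (hq : r ≤ q) (l u : U) :
    (∏ i : Fin r, e i.succ l) * (e 0 u) ^ (q + 1) ∈ abA e 1 * Z e q := by
  classical
  have h1 := abS_step e (Fin.cons 0 (fun _ => 1)) (Fin.cons (q + 1) (fun _ => 1)) 0 (by simp) 1
    (by
      rw [Fin.sum_univ_succ]
      simp
      omega)
  have h2 : (∏ i : Fin r, e i.succ l) * (e 0 u) ^ (q + 1) ∈
      abS e (Fin.cons 0 (fun _ => 1)) (Fin.cons (q + 1) (fun _ => 1)) := by
    refine Submodule.subset_span ⟨(l, fun _ => u), ?_⟩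
    simp only []
    rw [Fin.prod_univ_succ]
    simp only [Fin.cons_zero, Fin.cons_succ, pow_zero, one_mul, Nat.sub_zero, pow_one, Nat.sub_self,
      mul_one]
    rw [mul_comm]
  have h3 : abS e (Function.update (Fin.cons 0 (fun _ => 1) : Fin (r + 1) → ℕ) 0 1)
      (Fin.cons (q + 1) (fun _ => 1)) ≤ abA e 1 * Z e q := by
    unfold abS
    rw [Submodule.span_le]
    rintro _ ⟨⟨m, w⟩, rfl⟩
    simp only [SetLike.mem_coe]
    have h4 : (∏ i : Fin (r + 1), ((e i m) ^
        (Function.update (Fin.cons 0 (fun _ => 1) : Fin (r + 1) → ℕ) 0 1) i *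
        (e i (w i)) ^ ((Fin.cons (q + 1) (fun _ => 1) : Fin (r + 1) → ℕ) i -
          (Function.update (Fin.cons 0 (fun _ => 1) : Fin (r + 1) → ℕ) 0 1) i))) =
        (∏ i, e i m) * (e 0 (w 0)) ^ q := by
      rw [Fin.prod_univ_succ, Fin.prod_univ_succ]
      simp only [Function.update_self, Fin.cons_zero, pow_one, Nat.add_sub_cancel]
      have h5 : ∀ i : Fin r, (e i.succ m) ^
          (Function.update (Fin.cons 0 (fun _ => 1) : Fin (r + 1) → ℕ) 0 1) i.succ *
          (e i.succ (w i.succ)) ^ ((Fin.cons (q + 1) (fun _ => 1) : Fin (r + 1) → ℕ) i.succ -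
          (Function.update (Fin.cons 0 (fun _ => 1) : Fin (r + 1) → ℕ) 0 1) i.succ) =
          e i.succ m := by
        intro i
        rw [Function.update_of_ne (Fin.succ_ne_zero i)]
        simp
      rw [Finset.prod_congr rfl (fun i _ => h5 i)]
      ring
    rw [h4]
    exact Submodule.mul_mem_mul (theta_mem_abA e m) (Submodule.subset_span ⟨w 0, rfl⟩)
  exact h3 (h1 h2)

/-- extraction of all forms -/
theorem extract {r : ℕ} (e : Fin (r + 1) → U →ₗ[ℂ] F) (c : ℕ) (hc : r ≤ c) (n : ℕ) :
    ∀ (l : Fin n → U) (u : U),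
      (∏ s, ∏ i : Fin r, e i.succ (l s)) * (e 0 u) ^ (c + n) ∈ abA e n * Z e c := by
  classical
  induction n with
  | zero =>
    intro l u
    have h1 : (e 0 u) ^ c ∈ Z e c := Submodule.subset_span ⟨u, rfl⟩
    have := Submodule.mul_mem_mul (one_mem_abA e) h1
    simpa using this
  | succ n ih =>
    intro l u
    have h1 := step e (c + n) (by omega) (l 0) u
    have h2 : ∀ x ∈ abA e 1 * Z e (c + n),
        x * (∏ s : Fin n, ∏ i : Fin r, e i.succ (l s.succ)) ∈ abA e (n + 1) * Z e c := by
      intro x hx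
      have h3 : abA e 1 * Z e (c + n) ≤ (abA e (n + 1) * Z e c).comap
          (LinearMap.mulRight ℂ (∏ s : Fin n, ∏ i : Fin r, e i.succ (l s.succ))) := by
        rw [Submodule.mul_le]
        intro y hy z hz
        rw [Submodule.mem_comap, LinearMap.mulRight_apply]
        have h4 : z * (∏ s : Fin n, ∏ i : Fin r, e i.succ (l s.succ)) ∈ abA e n * Z e c := by
          unfold Z at hz
          induction hz using Submodule.span_induction with
          | mem z hz =>
            obtain ⟨w, rfl⟩ := hz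
            convert ih (fun s => l s.succ) w using 1
            exact mul_comm _ _
          | zero => rw [zero_mul]; exact Submodule.zero_mem _
          | add z z' _ _ h h' => rw [add_mul]; exact Submodule.add_mem _ h h'
          | smul k z _ h => rw [smul_mul_assoc]; exact Submodule.smul_mem _ _ h
        have h5 := Submodule.mul_mem_mul hy h4
        rw [← mul_assoc] at h5
        have h6 : abA e 1 * abA e n ≤ abA e (n + 1) := by
          rw [add_comm n 1]
          exact abA_mul_le e 1 n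
        rw [mul_assoc]
        exact (mul_le_mul_left h6 _) h5
      exact h3 hx
    have h3 := h2 _ h1
    convert h3 using 1
    rw [Fin.prod_univ_succ, ← add_assoc]
    ring

/-- The symmetrization statement. -/
def SS (F : Type*) [CommRing F] [Algebra ℂ F] (U : Type*) [AddCommGroup U] [Module ℂ U]
    (a b : ℕ) : Prop :=
  ∀ (e : Fin a → U →ₗ[ℂ] F) (ρ : Equiv.Perm (Fin a) → F →ₐ[ℂ] F),
    (∀ σ i u, ρ σ (e i u) = e (σ i) u) → (∀ σ τ x, ρ (σ * τ) x = ρ σ (ρ τ x)) →
    ∀ f ∈ abT e (fun _ => b), (∑ σ, ρ σ f) ∈ abA e b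

theorem ss_zero (b : ℕ) : SS F U 0 b := by
  intro e ρ _ _ f hf
  have h1 : ∀ σ, ρ σ f ∈ abA e b := by
    intro σ
    unfold abT at hf
    induction hf using Submodule.span_induction with
    | mem x hx =>
      obtain ⟨u, rfl⟩ := hx
      refine Submodule.subset_span ⟨fun _ => 0, ?_⟩
      simp
    | zero => rw [map_zero]; exact Submodule.zero_mem _
    | add x y _ _ hx hy => rw [map_add]; exact Submodule.add_mem _ hx hy
    | smul k x _ hx => rw [map_smul]; exact Submodule.smul_mem _ _ hx
  exact Submodule.sum_mem _ fun σ _ => h1 σ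

theorem ss_succ (r b : ℕ) (hb : r * r ≤ b) (hS : SS F U r (b - r)) : SS F U (r + 1) b := by
  classical
  intro e ρ hρ hmul f hf
  have hrb : r ≤ b := (Nat.le_mul_self r).trans hb
  set L : F →ₗ[ℂ] F := ∑ σ, (ρ σ).toLinearMap with hL
  have hLapp : ∀ x, L x = ∑ σ, ρ σ x := by
    intro x
    simp [hL]
  -- peeling
  have h1 : abT e (fun _ => b) ≤ abS e (Fin.cons 0 (fun _ => r)) (fun _ => b) := by
    apply abT_le_abS
    intro i
    refine le_trans (Finset.sum_le_sum_of_subset (Finset.subset_univ _)) ?_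
    rw [Fin.sum_univ_succ]
    simpa using hb
  -- the restricted system
  set e' : Fin r → U →ₗ[ℂ] F := fun i => e i.succ with he'
  have hρ' : ∀ (τ : Equiv.Perm (Fin r)) i u, ρ (extP τ) (e' i u) = e' (τ i) u := by
    intro τ i u
    rw [he', hρ, extP_succ]
  have hmul' : ∀ (σ τ : Equiv.Perm (Fin r)) x, ρ (extP (σ * τ)) x = ρ (extP σ) (ρ (extP τ) x) := by
    intro σ τ x
    rw [extP_mul, hmul]
  have hLinv : ∀ (τ : Equiv.Perm (Fin (r + 1))) x, L (ρ τ x) = L x := by
    intro τ x
    rw [hLapp, hLapp]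
    have : ∀ σ, ρ σ (ρ τ x) = ρ (σ * τ) x := fun σ => (hmul σ τ x).symm
    rw [Finset.sum_congr rfl (fun σ _ => this σ)]
    exact Fintype.sum_equiv (Equiv.mulRight τ) _ _ (fun σ => rfl)
  -- final local statement
  have hfin : ∀ m z : U, L ((∏ i : Fin r, e i.succ m) ^ r * (e 0 z) ^ r) ∈ abA e r := by
    intro m z
    have h2 := local_mem e r (Fin.cons r (fun _ => 0)) (by
      rw [Fin.sum_univ_succ]
      simp) m (fun _ => z)
    convert h2 using 1
    rw [hLapp]
    refine Finset.sum_congr rfl fun σ _ => ?_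
    rw [Fin.prod_univ_succ]
    simp only [Fin.cons_zero, Fin.cons_succ, Nat.sub_self, pow_zero, one_mul, Nat.sub_zero,
      mul_one]
    rw [map_mul, map_pow, map_pow, map_prod, hρ, mul_comm, Finset.prod_pow]
    simp only [hρ]
  have hfin2 : ∀ (m : U) (y z : F), y ∈ abA e (b - r) → z ∈ Z e r →
      L ((∏ i : Fin r, e i.succ m) ^ r * (y * z)) ∈ abA e b := by
    intro m y z hy hz
    have h8 : L ((∏ i : Fin r, e i.succ m) ^ r * z) ∈ abA e r := by
      unfold Z at hz
      induction hz using Submodule.span_induction with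
      | mem z hz =>
        obtain ⟨w, rfl⟩ := hz
        exact hfin m w
      | zero => rw [mul_zero, map_zero]; exact Submodule.zero_mem _
      | add z z' _ _ h h' => rw [mul_add, map_add]; exact Submodule.add_mem _ h h'
      | smul k z _ h => rw [mul_smul_comm, map_smul]; exact Submodule.smul_mem _ _ h
    have h6 : L ((∏ i : Fin r, e i.succ m) ^ r * (y * z)) =
        y * L ((∏ i : Fin r, e i.succ m) ^ r * z) := by
      rw [hLapp, hLapp, Finset.mul_sum]
      refine Finset.sum_congr rfl fun σ _ => ?_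
      have h7 : ρ σ y = y := abA_invariant e (ρ σ) σ (hρ σ) hy
      rw [map_mul, map_mul, h7, map_mul]
      ring
    rw [h6]
    have h11 := abA_mul_mem e hy h8
    rwa [Nat.sub_add_cancel hrb] at h11
  have hfin3 : ∀ (m : U) (x : F), x ∈ abA e (b - r) * Z e r →
      L ((∏ i : Fin r, e i.succ m) ^ r * x) ∈ abA e b := by
    intro m x hx
    have h3 : abA e (b - r) * Z e r ≤ (abA e b).comap
        (L ∘ₗ LinearMap.mulLeft ℂ ((∏ i : Fin r, e i.succ m) ^ r)) := by
      rw [Submodule.mul_le]
      intro y hy z hz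
      simp only [Submodule.mem_comap, LinearMap.comp_apply, LinearMap.mulLeft_apply]
      exact hfin2 m y z hy hz
    have := h3 hx
    simpa only [Submodule.mem_comap, LinearMap.comp_apply, LinearMap.mulLeft_apply] using this
  have hfin4 : ∀ (m u : U) (x : F), x ∈ abA e' (b - r) →
      L ((∏ i : Fin r, e i.succ m) ^ r * (x * (e 0 u) ^ b)) ∈ abA e b := by
    intro m u x hx
    unfold abA at hx
    induction hx using Submodule.span_induction with
    | mem x hx =>
      obtain ⟨l, rfl⟩ := hx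
      apply hfin3
      have h4 := extract e r le_rfl (b - r) l u
      rwa [Nat.add_sub_cancel' hrb] at h4
    | zero => rw [zero_mul, mul_zero, map_zero]; exact Submodule.zero_mem _
    | add z z' _ _ h h' => rw [add_mul, mul_add, map_add]; exact Submodule.add_mem _ h h'
    | smul k z _ h =>
      rw [smul_mul_assoc, mul_smul_comm, map_smul]; exact Submodule.smul_mem _ _ h
  have h2 : abS e (Fin.cons 0 (fun _ => r)) (fun _ => b) ≤ (abA e b).comap L := by
    unfold abS
    rw [Submodule.span_le]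
    rintro _ ⟨⟨m, w⟩, rfl⟩
    simp only [SetLike.mem_coe, Submodule.mem_comap]
    set g : F := ∏ i : Fin r, (e' i (w i.succ)) ^ (b - r) with hg
    have hgT : g ∈ abT e' (fun _ => b - r) := Submodule.subset_span ⟨fun i => w i.succ, rfl⟩
    have h3 : (∏ i : Fin (r + 1), ((e i m) ^ (Fin.cons 0 (fun _ => r) : Fin (r + 1) → ℕ) i *
        (e i (w i)) ^ (b - (Fin.cons 0 (fun _ => r) : Fin (r + 1) → ℕ) i))) =
        (∏ i : Fin r, e i.succ m) ^ r * (g * (e 0 (w 0)) ^ b) := by
      rw [Fin.prod_univ_succ]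
      simp only [Fin.cons_zero, Fin.cons_succ, pow_zero, one_mul, Nat.sub_zero]
      rw [Finset.prod_mul_distrib, Finset.prod_pow, hg]
      ring
    rw [h3]
    have h4 := hfin4 m (w 0) _ (hS e' (fun τ => ρ (extP τ)) hρ' hmul' g hgT)
    have h5 : ∀ τ : Equiv.Perm (Fin r), (∏ i : Fin r, e i.succ m) ^ r *
        (ρ (extP τ) g * (e 0 (w 0)) ^ b) =
        ρ (extP τ) ((∏ i : Fin r, e i.succ m) ^ r * (g * (e 0 (w 0)) ^ b)) := by
      intro τ
      have h6 : ∀ i : Fin r, ρ (extP τ) (e i.succ m) = e (τ i).succ m := by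
        intro i
        rw [hρ, extP_succ]
      have h10 : ρ (extP τ) (∏ i : Fin r, e i.succ m) = ∏ i : Fin r, e i.succ m := by
        rw [map_prod, Finset.prod_congr rfl (fun i _ => h6 i)]
        exact Equiv.prod_comp τ (fun i => e i.succ m)
      rw [map_mul, map_mul, map_pow, map_pow, h10, hρ, extP_zero]
    rw [Finset.sum_mul, Finset.mul_sum, map_sum] at h4
    have h7 : ∀ τ ∈ (Finset.univ : Finset (Equiv.Perm (Fin r))),
        L ((∏ i : Fin r, e i.succ m) ^ r * (ρ (extP τ) g * (e 0 (w 0)) ^ b)) =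
        L ((∏ i : Fin r, e i.succ m) ^ r * (g * (e 0 (w 0)) ^ b)) := by
      intro τ _
      rw [h5 τ, hLinv]
    rw [Finset.sum_congr rfl h7, Finset.sum_const, Finset.card_univ, Fintype.card_perm,
      Fintype.card_fin, ← Nat.cast_smul_eq_nsmul ℂ] at h4
    have h0 : (r.factorial : ℂ) ≠ 0 := by exact_mod_cast r.factorial_ne_zero
    have h8 := Submodule.smul_mem _ (r.factorial : ℂ)⁻¹ h4
    rwa [smul_smul, inv_mul_cancel₀ h0, one_smul] at h8
  have := h2 (h1 hf)
  rwa [Submodule.mem_comap, hLapp] at this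

/-- The symmetrization statement holds for `b ≥ (a - 1) ^ 2`. -/
theorem ss_all (a : ℕ) : ∀ b : ℕ, (a - 1) ^ 2 ≤ b → SS F U a b := by
  induction a with
  | zero => intro b _; exact ss_zero b
  | succ r ih =>
    intro b hb
    rw [Nat.add_sub_cancel] at hb
    apply ss_succ r b (by rw [← pow_two]; exact hb)
    apply ih
    rcases r with _ | n
    · simp
    · simp only [Nat.add_sub_cancel]
      have h1 : (n + 1) ^ 2 = n ^ 2 + n + (n + 1) := by ring
      omega

end Abstract

end Quad

universe u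

/-- The Foulkes-Howe map is injective for `b ≥ (a - 1) ^ 2`. -/
theorem foulkesHowe_injective_quad (a b : ℕ) (hb : (a - 1) ^ 2 ≤ b) (V : Type u)
    [AddCommGroup V] [Module ℂ V] [FiniteDimensional ℂ V]
    (Ψ : Sym a (Sym b V) →ₗ[ℂ] Sym b (Sym a V))
    (hΨ : ∀ w : Fin a → Fin b → V, Ψ (sprod fun i => sprod (w i)) =
      ∑ σ : Fin a → Equiv.Perm (Fin b), sprod fun j => sprod fun i => w i (σ i j)) :
    Function.Injective Ψ :=
  injective_of_symm_mem a b V
    (fun f hf => Quad.ss_all a b hb evF permF (fun _ _ _ => rfl) (fun _ _ _ => rfl) f hf) Ψ hΨ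

end Vale.Agent.P181
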